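import Mathlib

/-! # P246, row B: the stable range of a finite algebra over a noetherian central ring -/

namespace Vale.Agent.P246.R2.H31

variable {A R : Type} [CommRing A] [Ring R] [Algebra A R]

/-- `R / J` is generated by `k` elements at `p`. -/
def G (J : Submodule A R) (p : Ideal A) (k : ℕ) : Prop :=
  ∃ f : A, f ∉ p ∧ ∃ s : Finset R, s.card ≤ k ∧
    ∀ x : R, f • x ∈ J ⊔ Submodule.span A (s : Set R)

/-- `a` is zero in the fibre of `R / J` at `p`. -/
def Z (J : Submodule A R) (a : R) (p : Ideal A) : Prop :=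
  ∃ f : A, f ∉ p ∧ f • a ∈ J ⊔ p • (⊤ : Submodule A R)

lemma G.mono_k {J : Submodule A R} {p : Ideal A} {k l : ℕ} (h : G J p k) (hk : k ≤ l) :
    G J p l := by
  obtain ⟨f, hf, s, hs, h⟩ := h
  exact ⟨f, hf, s, hs.trans hk, h⟩

lemma G.mono_J {J J' : Submodule A R} {p : Ideal A} {k : ℕ} (h : G J p k) (hJ : J ≤ J') :
    G J' p k := by
  obtain ⟨f, hf, s, hs, h⟩ := h
  exact ⟨f, hf, s, hs, fun x => sup_le_sup_right hJ _ (h x)⟩

lemma G.mono_p {J : Submodule A R} {p q : Ideal A} {k : ℕ} (h : G J p k) (hq : q ≤ p) :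
    G J q k := by
  obtain ⟨f, hf, s, hs, h⟩ := h
  exact ⟨f, fun hf' => hf (hq hf'), s, hs, h⟩

lemma Z.mono_J {J J' : Submodule A R} {p : Ideal A} {a : R} (h : Z J a p) (hJ : J ≤ J') :
    Z J' a p := by
  obtain ⟨f, hf, h⟩ := h
  exact ⟨f, hf, sup_le_sup_right hJ _ h⟩

lemma G.zero {J : Submodule A R} {p : Ideal A} (h : G J p 0) (a : R) : Z J a p := by
  obtain ⟨f, hf, s, hs, h⟩ := h
  have hs' : s = ∅ := Finset.card_eq_zero.1 (by omega)
  refine ⟨f, hf, ?_⟩
  have := h a
  rw [hs'] at this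
  simp only [Finset.coe_empty, Submodule.span_empty, sup_bot_eq] at this
  exact Submodule.mem_sup_left this

/-- an element which is not zero in the fibre is part of a minimal generating system -/
lemma G.quot {J : Submodule A R} {p : Ideal A} [hp : p.IsPrime] {k : ℕ} {y : R}
    (h : G J p (k + 1)) (hy : ¬ Z J y p) : G (J ⊔ Submodule.span A {y}) p k := by
  classical
  obtain ⟨f, hf, s, hs, h⟩ := h
  obtain ⟨j, hj, z, hz, hjz⟩ := Submodule.mem_sup.1 (h y)
  obtain ⟨c, hc⟩ := Submodule.mem_span_finset'.1 hz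
  by_cases hall : ∀ x : s, c x ∈ p
  · exact absurd ⟨f, hf, by
      rw [← hjz]
      refine Submodule.add_mem_sup hj ?_
      rw [← hc]
      exact Submodule.sum_mem _ fun x _ => Submodule.smul_mem_smul (hall x) trivial⟩ hy
  · push Not at hall
    obtain ⟨x0, hx0⟩ := hall
    set N : Submodule A R := (J ⊔ Submodule.span A {y}) ⊔
      Submodule.span A ((s.erase x0.1 : Finset R) : Set R) with hN
    have hJN : J ≤ N := le_sup_left.trans le_sup_left
    have hyN : y ∈ N := Submodule.mem_sup_left (Submodule.mem_sup_right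
      (Submodule.mem_span_singleton_self y))
    have hsN : ∀ x ∈ s, x ≠ x0.1 → x ∈ N := fun x hx hne =>
      Submodule.mem_sup_right (Submodule.subset_span (by
        simp only [Finset.coe_erase, Set.mem_sdiff, Finset.mem_coe, Set.mem_singleton_iff]
        exact ⟨hx, hne⟩))
    have hx0N : c x0 • x0.1 ∈ N := by
      have e : c x0 • x0.1 = f • y - j - ∑ x ∈ Finset.univ.erase x0, c x • x.1 := by
        rw [← hjz, ← hc, ← Finset.add_sum_erase _ _ (Finset.mem_univ x0)]
        abel
      rw [e]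
      refine N.sub_mem (N.sub_mem (N.smul_mem _ hyN) (hJN hj)) (N.sum_mem fun x hx => ?_)
      refine N.smul_mem _ (hsN x.1 x.2 fun hh => ?_)
      exact (Finset.ne_of_mem_erase hx) (Subtype.ext hh)
    have key : J ⊔ Submodule.span A (s : Set R) ≤
        N.comap (LinearMap.lsmul A R (c x0)) := by
      refine sup_le (fun x hx => N.smul_mem _ (hJN hx)) (Submodule.span_le.2 fun x hx => ?_)
      by_cases hxx : x = x0.1
      · subst hxx
        exact hx0N
      · exact N.smul_mem _ (hsN x hx hxx)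
    refine ⟨c x0 * f, fun hm => (hp.mem_or_mem hm).elim hx0 hf, s.erase x0.1, ?_, fun x => ?_⟩
    · rw [Finset.card_erase_of_mem x0.2]
      omega
    · rw [mul_smul]
      exact key (h x)

/-- Nakayama -/
lemma G.lift {J : Submodule A R} {q : Ideal A} [hq : q.IsPrime] {k : ℕ} {a : R}
    (hZ : Z J a q) (h : G (J ⊔ Submodule.span A {a}) q k) : G J q k := by
  obtain ⟨f, hf, hfa⟩ := hZ
  obtain ⟨g, hg, s, hs, h⟩ := h
  set N : Submodule A R := J ⊔ Submodule.span A (s : Set R) with hN
  have h' : ∀ x : R, ∃ c : A, g • x - c • a ∈ N := by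
    intro x
    obtain ⟨u, hu, v, hv, huv⟩ := Submodule.mem_sup.1 (h x)
    obtain ⟨j, hj, w, hw, hjw⟩ := Submodule.mem_sup.1 hu
    obtain ⟨c, rfl⟩ := Submodule.mem_span_singleton.1 hw
    refine ⟨c, ?_⟩
    have e : g • x - c • a = j + v := by
      rw [← huv, ← hjw]
      abel
    rw [e]
    exact Submodule.add_mem_sup hj hv
  have hq' : ∀ w ∈ q • (⊤ : Submodule A R), ∃ c ∈ q, g • w - c • a ∈ N := by
    intro w hw
    refine Submodule.smul_induction_on hw (fun r hr n _ => ?_) (fun x y hx hy => ?_)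
    · obtain ⟨c, hc⟩ := h' n
      refine ⟨r * c, q.mul_mem_right _ hr, ?_⟩
      have e : g • r • n - (r * c) • a = r • (g • n - c • a) := by
        rw [smul_sub, mul_smul, smul_comm]
      rw [e]
      exact N.smul_mem _ hc
    · obtain ⟨c, hc, hx⟩ := hx
      obtain ⟨c', hc', hy⟩ := hy
      refine ⟨c + c', q.add_mem hc hc', ?_⟩
      have e : g • (x + y) - (c + c') • a = (g • x - c • a) + (g • y - c' • a) := by
        rw [smul_add, add_smul]
        abel
      rw [e]
      exact N.add_mem hx hy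
  obtain ⟨j, hj, w, hw, hjw⟩ := Submodule.mem_sup.1 hfa
  obtain ⟨c, hc, hgc⟩ := hq' w hw
  have hh : (g * f - c) • a ∈ N := by
    have e : (g * f - c) • a = g • j + (g • w - c • a) := by
      rw [sub_smul, mul_smul, ← hjw, smul_add]
      abel
    rw [e]
    exact N.add_mem (Submodule.mem_sup_left (J.smul_mem _ hj)) hgc
  have hh' : g * f - c ∉ q := fun hm => by
    have := q.add_mem hm hc
    rw [sub_add_cancel] at this
    exact (hq.mem_or_mem this).elim hg hf
  refine ⟨(g * f - c) * g, fun hm => (hq.mem_or_mem hm).elim hh' hg, s, hs, fun x => ?_⟩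
  obtain ⟨c', hc'⟩ := h' x
  have e : ((g * f - c) * g) • x = (g * f - c) • (g • x - c' • a) + c' • (g * f - c) • a := by
    rw [smul_sub, mul_smul, smul_comm c' (g * f - c) a]
    abel
  rw [e]
  exact N.add_mem (N.smul_mem _ hc') (N.smul_mem _ hh)

/-- a common element of general position for finitely many primes -/
lemma exists_t (J : Submodule A R) (y a : R) : ∀ (n : ℕ) (S : Finset (Ideal A)), S.card = n →
    (∀ p ∈ S, p.IsPrime) → (∀ p ∈ S, ¬ Z J a p) → ∃ t : A, ∀ p ∈ S, ¬ Z J (y + t • a) p := by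
  classical
  intro n
  induction n with
  | zero =>
    intro S hS _ _
    refine ⟨0, fun p hp => ?_⟩
    rw [Finset.card_eq_zero.1 hS] at hp
    simp at hp
  | succ n ih =>
    intro S hS hpr hZ
    have hne : S.Nonempty := Finset.card_pos.1 (by omega)
    obtain ⟨p, hpm⟩ := S.exists_minimal hne
    have hpS := hpm.1
    obtain ⟨t, ht⟩ := ih (S.erase p) (by rw [Finset.card_erase_of_mem hpS]; omega)
      (fun q hq => hpr q (Finset.mem_of_mem_erase hq))
      (fun q hq => hZ q (Finset.mem_of_mem_erase hq))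
    by_cases hp : Z J (y + t • a) p
    · have hpp := hpr p hpS
      have hu : ∃ u : A, u ∉ p ∧ ∀ q ∈ S.erase p, u ∈ q := by
        have hx : ∀ q ∈ S.erase p, ∃ u ∈ q, u ∉ p := by
          intro q hq
          by_contra hcon
          push Not at hcon
          have hle : q ≤ p := fun u hu => hcon u hu
          exact (Finset.ne_of_mem_erase hq)
            (le_antisymm hle (hpm.2 (Finset.mem_of_mem_erase hq) hle))
        choose! w hw hwp using hx
        refine ⟨∏ q ∈ S.erase p, w q, ?_, fun q hq => ?_⟩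
        · intro hmem
          obtain ⟨q, hq, hmem⟩ := (Ideal.IsPrime.prod_mem_iff (hp := hpp)).1 hmem
          exact hwp q hq hmem
        · rw [← Finset.mul_prod_erase _ _ hq]
          exact q.mul_mem_right _ (hw q hq)
      obtain ⟨u, hup, huq⟩ := hu
      refine ⟨t + u, fun q hq => ?_⟩
      by_cases hqp : q = p
      · subst hqp
        rintro ⟨g, hg, hgz⟩
        obtain ⟨f, hf, hfz⟩ := hp
        refine hZ q hq ⟨f * g * u, fun hm => ?_, ?_⟩
        · rcases hpp.mem_or_mem hm with hm | hm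
          · exact (hpp.mem_or_mem hm).elim hf hg
          · exact hup hm
        · have e : (f * g * u) • a = f • g • (y + (t + u) • a) - g • f • (y + t • a) := by
            rw [smul_comm g f (y + t • a), ← smul_sub, ← smul_sub, add_smul, mul_smul, mul_smul]
            congr 2
            abel
          rw [e]
          exact Submodule.sub_mem _ (Submodule.smul_mem _ _ hgz) (Submodule.smul_mem _ _ hfz)
      · have hq' : q ∈ S.erase p := Finset.mem_erase.2 ⟨hqp, hq⟩
        rintro ⟨g, hg, hgz⟩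
        refine ht q hq' ⟨g, hg, ?_⟩
        have e : g • (y + t • a) = g • (y + (t + u) • a) - g • u • a := by
          rw [← smul_sub, add_smul]
          congr 1
          abel
        rw [e]
        refine Submodule.sub_mem _ hgz (Submodule.smul_mem _ _ ?_)
        exact Submodule.mem_sup_right (Submodule.smul_mem_smul (huq q hq') trivial)
    · refine ⟨t, fun q hq => ?_⟩
      by_cases hqp : q = p
      · rw [hqp]
        exact hp
      · exact ht q (Finset.mem_erase.2 ⟨hqp, hq⟩)

/-- the invariant after `i` steps -/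
def Inv (m i : ℕ) (a : R) (J : Submodule A R) : Prop :=
  ∀ p : Ideal A, p.IsPrime → ¬ Z J a p →
    ∃ k, k + i ≤ m * (1 + p.height.toNat) ∧ G J p k

/-- critical primes -/
def Crit (m i : ℕ) (a : R) (J : Submodule A R) (p : Ideal A) : Prop :=
  p.IsPrime ∧ ¬ Z J a p ∧ ¬ ∃ k, k + i + 1 ≤ m * (1 + p.height.toNat) ∧ G J p k

lemma toNat_lt [IsNoetherianRing A] {q p : Ideal A} [q.IsPrime] [hp : p.IsPrime] (h : q < p) :
    q.height.toNat + 1 ≤ p.height.toNat := by
  have h1 : q.height + 1 ≤ p.height := Ideal.height_add_one_le_of_lt_of_isPrime h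
  have h2 : p.height ≠ ⊤ := p.height_ne_top hp.ne_top
  have h3 := ENat.toNat_le_toNat h1 h2
  have h4 : q.height ≠ ⊤ := fun hh => by
    rw [hh] at h1
    exact h2 (top_le_iff.1 (le_trans (by simp) h1))
  rwa [ENat.toNat_add h4 (by simp)] at h3

/-- every critical prime is a minimal prime over one of finitely many ideals -/
lemma crit_minimal [IsNoetherianRing A] {m i : ℕ} (hm : 1 ≤ m) {a : R} {J : Submodule A R}
    (hgen : ∀ p : Ideal A, p.IsPrime → G J p m) (hI : Inv m i a J) {p : Ideal A}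
    (hp : Crit m i a J p) : ∃ k ∈ Finset.range m,
      p ∈ (Ideal.span {f : A | ∃ s : Finset R, s.card ≤ k ∧
        ∀ x : R, f • x ∈ J ⊔ Submodule.span A (s : Set R)}).minimalPrimes := by
  obtain ⟨hpp, hZ, hno⟩ := hp
  obtain ⟨k, hk, hG⟩ := hI p hpp hZ
  have hkeq : k + i = m * (1 + p.height.toNat) := by
    by_contra hne
    exact hno ⟨k, by omega, hG⟩
  have hk0 : k ≠ 0 := by
    rintro rfl
    exact hZ (hG.zero a)
  obtain ⟨l, rfl⟩ := Nat.exists_eq_succ_of_ne_zero hk0
  have hnG : ¬ G J p l := fun h => hno ⟨l, by omega, h⟩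
  have hlm : l < m := by
    by_contra hcon
    exact hnG ((hgen p hpp).mono_k (by omega))
  refine ⟨l, Finset.mem_range.2 hlm, ?_⟩
  refine ⟨⟨hpp, Ideal.span_le.2 fun f hf => ?_⟩, fun q hq hqp => ?_⟩
  · by_contra hfp
    obtain ⟨s, hs, h⟩ := hf
    exact hnG ⟨f, hfp, s, hs, h⟩
  · obtain ⟨hqp', hqI⟩ := hq
    by_contra hnle
    have hlt : q < p := lt_of_le_not_ge hqp hnle
    have hnGq : ¬ G J q l := by
      rintro ⟨f, hf, s, hs, h⟩
      exact hf (hqI (Ideal.subset_span ⟨s, hs, h⟩))
    have hht := toNat_lt hlt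
    have hZq : Z J a q := by
      by_contra hcon
      obtain ⟨k₂, hk₂, hG₂⟩ := hI q hqp' hcon
      refine hnGq (hG₂.mono_k ?_)
      have h1 : m * (1 + q.height.toNat) + m ≤ m * (1 + p.height.toNat) := by
        calc m * (1 + q.height.toNat) + m = m * (1 + (q.height.toNat + 1)) := by ring
          _ ≤ m * (1 + p.height.toNat) := Nat.mul_le_mul_left _ (by omega)
      omega
    exact hnGq (G.lift hZq ((hG.quot hZ).mono_p hqp))

lemma finite_crit [IsNoetherianRing A] {m i : ℕ} (hm : 1 ≤ m) {a : R} {J : Submodule A R}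
    (hgen : ∀ p : Ideal A, p.IsPrime → G J p m) (hI : Inv m i a J) :
    {p : Ideal A | Crit m i a J p}.Finite := by
  refine Set.Finite.subset (Set.Finite.biUnion (Finset.range m).finite_toSet
    (t := fun k => (Ideal.span {f : A | ∃ s : Finset R, s.card ≤ k ∧
        ∀ x : R, f • x ∈ J ⊔ Submodule.span A (s : Set R)}).minimalPrimes)
    fun k _ => Ideal.finite_minimalPrimes_of_isNoetherianRing A _) ?_
  intro p hp
  obtain ⟨k, hk, h⟩ := crit_minimal hm hgen hI hp
  exact Set.mem_biUnion (Finset.mem_coe.2 hk) h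

/-- one step -/
lemma step [IsNoetherianRing A] {m i : ℕ} (hm : 1 ≤ m) {a : R} {J : Submodule A R}
    (hgen : ∀ p : Ideal A, p.IsPrime → G J p m) (hI : Inv m i a J) (y : R) :
    ∃ t : A, ∀ J' : Submodule A R, J ≤ J' → y + t • a ∈ J' → Inv m (i + 1) a J' := by
  classical
  have hfin := finite_crit hm hgen hI
  obtain ⟨t, ht⟩ := exists_t J y a hfin.toFinset.card hfin.toFinset rfl
    (fun p hp => ((Set.Finite.mem_toFinset _).1 hp).1)
    (fun p hp => ((Set.Finite.mem_toFinset _).1 hp).2.1)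
  refine ⟨t, fun J' hJ hy p hp hZ' => ?_⟩
  have hZ : ¬ Z J a p := fun h => hZ' (h.mono_J hJ)
  by_cases hc : Crit m i a J p
  · have htp := ht p ((Set.Finite.mem_toFinset _).2 hc)
    obtain ⟨k, hk, hG⟩ := hI p hp hZ
    have hk0 : k ≠ 0 := by
      rintro rfl
      exact hZ (hG.zero a)
    obtain ⟨l, rfl⟩ := Nat.exists_eq_succ_of_ne_zero hk0
    refine ⟨l, by omega, (hG.quot htp).mono_J (sup_le hJ ?_)⟩
    rw [Submodule.span_le, Set.singleton_subset_iff]
    exact hy
  · have : ∃ k, k + i + 1 ≤ m * (1 + p.height.toNat) ∧ G J p k := by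
      by_contra hcon
      exact hc ⟨hp, hZ, hcon⟩
    obtain ⟨k, hk, hG⟩ := this
    exact ⟨k, by omega, hG.mono_J hJ⟩

/-- all steps -/
lemma chain [IsNoetherianRing A] {m : ℕ} (hm : 1 ≤ m) (a : R)
    (hgen : ∀ p : Ideal A, p.IsPrime → G (⊥ : Submodule A R) p m) : ∀ (n : ℕ) (y : Fin n → R)
    (i : ℕ) (J : Submodule A R), (∀ x ∈ J, ∀ r : R, x * r ∈ J) → Inv m i a J →
    ∃ (t : Fin n → A) (J' : Submodule A R), J ≤ J' ∧ (∀ x ∈ J', ∀ r : R, x * r ∈ J') ∧
      (∀ x ∈ J', ∃ v : Fin n → R, x - ∑ j, (y j + t j • a) * v j ∈ J) ∧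
      (∀ j, y j + t j • a ∈ J') ∧ Inv m (i + n) a J' := by
  intro n
  induction n with
  | zero =>
    intro y i J hJ hI
    exact ⟨fun _ => 0, J, le_rfl, hJ, fun x hx => ⟨fun _ => 0, by simpa using hx⟩,
      fun j => j.elim0, hI⟩
  | succ n ih =>
    intro y i J hJ hI
    obtain ⟨t₀, ht₀⟩ := step hm (fun p hp => (hgen p hp).mono_J bot_le) hI (y 0)
    set J₁ : Submodule A R := J ⊔ LinearMap.range (LinearMap.mulLeft A (y 0 + t₀ • a)) with hJ₁
    have hy₁ : y 0 + t₀ • a ∈ J₁ := Submodule.mem_sup_right ⟨1, by simp⟩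
    have hr₁ : ∀ x ∈ J₁, ∀ r : R, x * r ∈ J₁ := by
      intro x hx r
      obtain ⟨u, hu, v, ⟨w, rfl⟩, rfl⟩ := Submodule.mem_sup.1 hx
      rw [add_mul]
      exact Submodule.add_mem_sup (hJ u hu r) ⟨w * r, by simp [mul_assoc]⟩
    obtain ⟨t, J', hle, hr, hv, hy, hI'⟩ := ih (fun j => y j.succ) (i + 1) J₁ hr₁
      (ht₀ J₁ le_sup_left hy₁)
    refine ⟨Fin.cons t₀ t, J', le_sup_left.trans hle, hr, fun x hx => ?_, fun j => ?_, ?_⟩
    · obtain ⟨v, hv⟩ := hv x hx
      obtain ⟨u, hu, w', ⟨w, rfl⟩, huw⟩ := Submodule.mem_sup.1 hv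
      refine ⟨Fin.cons w v, ?_⟩
      have e : x - ∑ j, (y j + (Fin.cons t₀ t : Fin (n + 1) → A) j • a) *
          (Fin.cons w v : Fin (n + 1) → R) j = u := by
        rw [Fin.sum_univ_succ]
        simp only [Fin.cons_zero, Fin.cons_succ]
        rw [LinearMap.mulLeft_apply] at huw
        rw [sub_add_eq_sub_sub_swap, ← huw]
        abel
      rw [e]
      exact hu
    · refine Fin.cases ?_ (fun j => ?_) j
      · simpa using hle hy₁
      · simpa using hy j
    · have : i + (n + 1) = i + 1 + n := by ring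
      rw [this]
      exact hI'

/-- the end: if `a` vanishes in all fibres and generates the quotient, the quotient is zero -/
lemma finish {J : Submodule A R} (hr : ∀ x ∈ J, ∀ r : R, x * r ∈ J) {a : R} {m : ℕ}
    (hgen : ∀ p : Ideal A, p.IsPrime → G (⊥ : Submodule A R) p m)
    (hZ : ∀ p : Ideal A, p.IsPrime → Z J a p) (h1 : ∃ c : R, 1 - a * c ∈ J) : (1 : R) ∈ J := by
  classical
  obtain ⟨c, hc⟩ := h1
  have hZx : ∀ p : Ideal A, p.IsPrime → ∀ x : R, Z J x p := by
    intro p hp x
    obtain ⟨f, hf, hfa⟩ := hZ p hp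
    refine ⟨f, hf, ?_⟩
    have hmul : ∀ u ∈ J ⊔ p • (⊤ : Submodule A R), ∀ r : R,
        u * r ∈ J ⊔ p • (⊤ : Submodule A R) := by
      intro u hu r
      obtain ⟨j, hj, w, hw, rfl⟩ := Submodule.mem_sup.1 hu
      rw [add_mul]
      refine Submodule.add_mem_sup (hr j hj r) ?_
      refine Submodule.smul_induction_on hw (fun b hb n _ => ?_) (fun x y hx hy => ?_)
      · rw [smul_mul_assoc]
        exact Submodule.smul_mem_smul hb trivial
      · rw [add_mul]
        exact Submodule.add_mem _ hx hy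
    have e : f • x = f • ((1 - a * c) * x) + (f • a) * (c * x) := by
      rw [smul_mul_assoc, ← smul_add]
      congr 1
      noncomm_ring
    rw [e]
    exact Submodule.add_mem _ (Submodule.smul_mem _ _ (Submodule.mem_sup_left (hr _ hc x)))
      (hmul _ hfa _)
  have hG : ∀ p : Ideal A, p.IsPrime → G J p 0 := by
    intro p hp
    obtain ⟨f, hf, s, _, hs⟩ := hgen p hp
    have key : ∀ s' : Finset R, G (J ⊔ Submodule.span A (s' : Set R)) p 0 → G J p 0 := by
      intro s'
      induction s' using Finset.induction_on with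
      | empty => intro h; simpa using h
      | insert x s' _ ih =>
        intro h
        refine ih (G.lift (a := x) ((hZx p hp x).mono_J le_sup_left) (h.mono_J ?_))
        rw [Finset.coe_insert, Submodule.span_insert, sup_assoc,
          sup_comm (Submodule.span A (s' : Set R)) (Submodule.span A {x})]
    refine key s ⟨f, hf, ∅, le_rfl, fun x => ?_⟩
    have := hs x
    rw [bot_sup_eq] at this
    exact Submodule.mem_sup_left (Submodule.mem_sup_right this)
  let K : Ideal A := J.comap (LinearMap.toSpanSingleton A R 1)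
  have hK : K = ⊤ := by
    by_contra hne
    obtain ⟨p, hp, hle⟩ := Ideal.exists_le_maximal K hne
    obtain ⟨f, hf, s, hs, h⟩ := hG p hp.isPrime
    have hs' : s = ∅ := Finset.card_eq_zero.1 (by omega)
    have h1 := h 1
    rw [hs'] at h1
    simp only [Finset.coe_empty, Submodule.span_empty, sup_bot_eq] at h1
    exact hf (hle (by simpa [K] using h1))
  have : (1 : A) ∈ K := by rw [hK]; trivial
  simpa [K] using this

/-- Bass' stable range condition (for right unimodular rows). -/
def SR (R : Type) [Ring R] (n : ℕ) : Prop :=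
  ∀ (y : Fin n → R) (a : R), (∃ (b : Fin n → R) (c : R), ∑ i, y i * b i + a * c = 1) →
    ∃ t v : Fin n → R, ∑ i, (y i + a * t i) * v i = 1

theorem bass (A R : Type) [CommRing A] [IsNoetherianRing A] [Ring R] [Algebra A R]
    [Module.Finite A R] (d : ℕ) (hd : ∀ p : Ideal A, p.IsPrime → p.height ≤ d) :
    ∃ n : ℕ, 1 ≤ n ∧ SR R n := by
  classical
  obtain ⟨s, hs⟩ := (Module.Finite.fg_top : (⊤ : Submodule A R).FG)
  set m := s.card + 1 with hm
  have hgen : ∀ p : Ideal A, p.IsPrime → G (⊥ : Submodule A R) p m := fun p hp =>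
    ⟨1, fun h => hp.ne_top ((Ideal.eq_top_iff_one _).2 h), s, by omega, fun x => by
      rw [bot_sup_eq, hs]; trivial⟩
  refine ⟨m * (1 + d), Nat.succ_le_of_lt (Nat.mul_pos (by omega) (by omega)), ?_⟩
  intro y a ⟨b, c, hbc⟩
  have hI0 : Inv m 0 a (⊥ : Submodule A R) := fun p hp _ =>
    ⟨m, by nlinarith [Nat.zero_le p.height.toNat], hgen p hp⟩
  obtain ⟨t, J', -, hr, hv, hy, hI⟩ := chain (by omega) a hgen (m * (1 + d)) y 0 ⊥
    (fun x hx r => by simp only [Submodule.mem_bot] at hx ⊢; rw [hx, zero_mul]) hI0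
  have hZ : ∀ p : Ideal A, p.IsPrime → Z J' a p := by
    intro p hp
    by_contra hcon
    obtain ⟨k, hk, hG⟩ := hI p hp hcon
    have h1 : p.height.toNat ≤ d := ENat.toNat_le_of_le_natCast (hd p hp)
    have h2 : m * (1 + p.height.toNat) ≤ m * (1 + d) := Nat.mul_le_mul_left _ (by omega)
    have hk0 : k = 0 := by omega
    subst hk0
    exact hcon (hG.zero a)
  have h1 : (1 : R) ∈ J' := by
    refine finish hr hgen hZ ⟨c - ∑ i, t i • b i, ?_⟩
    have e : 1 - a * (c - ∑ i, t i • b i) = ∑ i, (y i + t i • a) * b i := by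
      rw [← hbc]
      simp only [add_mul, Finset.sum_add_distrib, mul_sub, Finset.mul_sum, smul_mul_assoc,
        mul_smul_comm]
      abel
    rw [e]
    exact Submodule.sum_mem _ fun i _ => hr _ (hy i) _
  obtain ⟨v, hv⟩ := hv 1 h1
  refine ⟨fun i => algebraMap A R (t i), v, ?_⟩
  rw [Submodule.mem_bot, sub_eq_zero] at hv
  rw [hv]
  refine Finset.sum_congr rfl fun i _ => ?_
  rw [Algebra.smul_def, Algebra.commutes]

end Vale.Agent.P246.R2.H31
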