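import Vale.Agent.P246.R2.H31.Semi

/-! # P246, row B2: Bass' stable range theorem with the right bound -/

namespace Vale.Agent.P246.R2.H31B2

open TensorProduct Vale.Agent.P246.R2.H31S

variable {A R : Type} [CommRing A] [Ring R] [Algebra A R]

/-! ## The fibre at a prime -/

section Fibre

variable (p : Ideal A) [p.IsPrime]

/-- the map to the fibre -/
noncomputable abbrev io : R →ₐ[A] p.ResidueField ⊗[A] R := Algebra.TensorProduct.includeRight

variable (R) in
lemma f1 (s : p.ResidueField ⊗[A] R) : ∃ g : A, g ∉ p ∧ ∃ r : R, g • s = io p r := by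
  have hp : (1 : A) ∉ p := fun h => ‹p.IsPrime›.ne_top ((Ideal.eq_top_iff_one _).2 h)
  induction s using TensorProduct.induction_on with
  | zero => exact ⟨1, hp, 0, by rw [smul_zero, map_zero]⟩
  | tmul k r =>
    obtain ⟨⟨x, g, hg⟩, h⟩ := IsLocalization.surj (nonZeroDivisors (A ⧸ p)) k
    obtain ⟨x, rfl⟩ := Ideal.Quotient.mk_surjective x
    obtain ⟨g, rfl⟩ := Ideal.Quotient.mk_surjective g
    refine ⟨g, fun hgp => ?_, x • r, ?_⟩
    · rw [Ideal.Quotient.eq_zero_iff_mem.2 hgp] at hg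
      exact zero_notMem_nonZeroDivisors hg
    · have h' : g • k = algebraMap A p.ResidueField x := by
        rw [Algebra.smul_def, mul_comm]
        exact h
      rw [smul_tmul', h', map_smul, Algebra.TensorProduct.includeRight_apply, smul_tmul',
        Algebra.smul_def, mul_one]
  | add a b ha hb =>
    obtain ⟨g, hg, r, hr⟩ := ha
    obtain ⟨g', hg', r', hr'⟩ := hb
    refine ⟨g * g', fun h => (‹p.IsPrime›.mem_or_mem h).elim hg hg', g' • r + g • r', ?_⟩
    rw [map_add, map_smul, map_smul, ← hr, ← hr', smul_add, mul_smul, mul_smul, smul_comm g g' a]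

lemma f3 (r : R) (hr : r ∈ p • (⊤ : Submodule A R)) : io p r = 0 := by
  refine Submodule.smul_induction_on hr (fun a ha n _ => ?_) (fun x y hx hy => ?_)
  · rw [map_smul, Algebra.TensorProduct.includeRight_apply, smul_tmul', Algebra.smul_def, mul_one,
      Ideal.algebraMap_residueField_eq_zero.2 ha, zero_tmul]
  · rw [map_add, hx, hy, add_zero]

lemma f2 (r : R) (hr : io p r = 0) : ∃ g : A, g ∉ p ∧ g • r ∈ p • (⊤ : Submodule A R) := by
  let Q := R ⧸ (p • (⊤ : Submodule A R))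
  let f : p.ResidueField ⊗[A] R →ₗ[A] p.ResidueField ⊗[A ⧸ p] Q :=
    TensorProduct.lift (LinearMap.mk₂ A (fun k r => k ⊗ₜ[A ⧸ p] (Submodule.Quotient.mk r : Q))
      (fun a b c => add_tmul _ _ _) (fun a b c => by rw [smul_tmul'])
      (fun a b c => by rw [Submodule.Quotient.mk_add, tmul_add])
      (fun a b c => by rw [Submodule.Quotient.mk_smul, tmul_smul]))
  have h1 : f (io p r) = 1 ⊗ₜ[A ⧸ p] (Submodule.Quotient.mk r : Q) := rfl
  rw [hr, map_zero] at h1
  have h2 : TensorProduct.mk (A ⧸ p) p.ResidueField Q 1 (Submodule.Quotient.mk r : Q) = 0 := h1.symm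
  obtain ⟨⟨c, hc⟩, h3⟩ := (IsLocalizedModule.eq_zero_iff (nonZeroDivisors (A ⧸ p))
    (TensorProduct.mk (A ⧸ p) p.ResidueField Q 1)).1 h2
  obtain ⟨g, rfl⟩ := Ideal.Quotient.mk_surjective c
  refine ⟨g, fun hgp => ?_, ?_⟩
  · rw [Ideal.Quotient.eq_zero_iff_mem.2 hgp] at hc
    exact zero_notMem_nonZeroDivisors hc
  · rw [← Submodule.Quotient.mk_eq_zero]
    exact h3

end Fibre

/-! ## Membership up to nilpotents -/

/-- `a` is in `J` up to a two-sided ideal which is nilpotent at `p` -/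
def Zp (J : Submodule A R) (a : R) (p : Ideal A) : Prop :=
  ∃ f : A, f ∉ p ∧ ∃ N : Submodule A R, (∀ x ∈ N, ∀ r : R, x * r ∈ N ∧ r * x ∈ N) ∧
    (∃ k : ℕ, ∃ h : A, h ∉ p ∧ ∀ x ∈ N ^ k, h • x ∈ p • (⊤ : Submodule A R)) ∧ f • a ∈ J ⊔ N

lemma Zp.mono {J J' : Submodule A R} {a : R} {p : Ideal A} (h : Zp J a p) (hJ : J ≤ J') :
    Zp J' a p := by
  obtain ⟨f, hf, N, hN, hk, hfa⟩ := h
  exact ⟨f, hf, N, hN, hk, sup_le_sup_right hJ _ hfa⟩

/-- the exceptional set is closed -/
lemma Zp.spread {J : Submodule A R} {a : R} {q : Ideal A} [hq : q.IsPrime] (h : Zp J a q) :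
    ∃ f : A, f ∉ q ∧ ∀ p : Ideal A, p.IsPrime → q ≤ p → ¬ Zp J a p → f ∈ p := by
  obtain ⟨f, hf, N, hN, ⟨k, h, hh, hk⟩, hfa⟩ := h
  refine ⟨f * h, fun hm => (hq.mem_or_mem hm).elim hf hh, fun p hp hqp hZ => ?_⟩
  by_contra hcon
  refine hZ ⟨f, fun hm => hcon (p.mul_mem_right _ hm), N, hN, ⟨k, h, fun hm =>
    hcon (p.mul_mem_left _ hm), fun x hx => ?_⟩, hfa⟩
  exact Submodule.smul_mono_left hqp (hk x hx)

lemma common (p : Ideal A) [hp : p.IsPrime] (W : Submodule A R) (hW : W.FG)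
    (h : ∀ x ∈ W, ∃ g : A, g ∉ p ∧ g • x ∈ p • (⊤ : Submodule A R)) :
    ∃ g : A, g ∉ p ∧ ∀ x ∈ W, g • x ∈ p • (⊤ : Submodule A R) := by
  classical
  obtain ⟨s, rfl⟩ := hW
  choose! g hg hgx using h
  refine ⟨∏ x ∈ s, g x, fun hm => ?_, fun x hx => ?_⟩
  · obtain ⟨x, hx, hm⟩ := (Ideal.IsPrime.prod_mem_iff (hp := hp)).1 hm
    exact hg x (Submodule.subset_span (Finset.mem_coe.2 hx)) hm
  · have : Submodule.span A (s : Set R) ≤
        (p • (⊤ : Submodule A R)).comap (LinearMap.lsmul A R (∏ x ∈ s, g x)) := by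
      refine Submodule.span_le.2 fun y hy => ?_
      change (∏ x ∈ s, g x) • y ∈ p • (⊤ : Submodule A R)
      rw [← Finset.prod_erase_mul _ _ hy, mul_smul]
      exact Submodule.smul_mem _ _ (hgx y (Submodule.subset_span hy))
    exact this hx

/-- the step at a prime -/
lemma step_at [IsNoetherianRing A] [Module.Finite A R] (p : Ideal A) [hp : p.IsPrime]
    (J : Submodule A R) (hJ : ∀ x ∈ J, ∀ r : R, r * x ∈ J) (y a : R) :
    ∃ t : R, ∀ g : A, g ∉ p → ∀ t' : R, t' - g • t ∈ p • (⊤ : Submodule A R) →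
      ∀ J' : Submodule A R, J ≤ J' → (∀ x ∈ J', ∀ r : R, r * x ∈ J') → y + t' * a ∈ J' →
        Zp J' a p := by
  let S := p.ResidueField ⊗[A] R
  let ι : R →ₐ[A] S := io p
  have hart : IsArtinianRing S := artin p.ResidueField
  let JS : Submodule S S := Submodule.span S (ι '' J)
  have hJS : ∀ j ∈ JS, ∃ g : A, g ∉ p ∧ ∃ j₀ ∈ J, g • j = ι j₀ := by
    intro j hj
    refine Submodule.span_induction (p := fun j _ => ∃ g : A, g ∉ p ∧ ∃ j₀ ∈ J, g • j = ι j₀)
      ?_ ?_ ?_ ?_ hj
    · rintro _ ⟨j₀, hj₀, rfl⟩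
      exact ⟨1, fun h => hp.ne_top ((Ideal.eq_top_iff_one _).2 h), j₀, hj₀, one_smul _ _⟩
    · exact ⟨1, fun h => hp.ne_top ((Ideal.eq_top_iff_one _).2 h), 0, J.zero_mem, by
        rw [one_smul, map_zero]⟩
    · rintro a b _ _ ⟨g, hg, j, hj, hgj⟩ ⟨g', hg', j', hj', hgj'⟩
      refine ⟨g * g', fun h => (hp.mem_or_mem h).elim hg hg', g' • j + g • j',
        J.add_mem (J.smul_mem _ hj) (J.smul_mem _ hj'), ?_⟩
      rw [map_add, map_smul, map_smul, ← hgj, ← hgj', smul_add, mul_smul, mul_smul,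
        smul_comm g g' a]
    · rintro s b _ ⟨g, hg, j, hj, hgj⟩
      obtain ⟨g', hg', r, hr⟩ := f1 R p s
      refine ⟨g * g', fun h => (hp.mem_or_mem h).elim hg hg', r * j, hJ _ hj r, ?_⟩
      rw [map_mul]
      change (g * g') • (s * b) = io p r * ι j
      rw [← hr, ← hgj, smul_mul_smul_comm, mul_comm g g']
  obtain ⟨tS, htS⟩ := fd p.ResidueField JS (ι y) (ι a)
  obtain ⟨g₀, hg₀, t, ht⟩ := f1 R p tS
  refine ⟨t, fun g hg t' ht' J' hJJ' hJ' hy => ?_⟩
  have hιt : ι t' = (algebraMap A p.ResidueField (g * g₀)) • tS := by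
    have h1 := f3 p _ ht'
    rw [map_sub, map_smul, sub_eq_zero] at h1
    change ι t' = _
    rw [algebraMap_smul, mul_smul, ht]
    exact h1
  have hl : algebraMap A p.ResidueField (g * g₀) ≠ 0 := by
    rw [Ne, Ideal.algebraMap_residueField_eq_zero]
    exact fun h => (hp.mem_or_mem h).elim hg hg₀
  obtain ⟨j, hj, s, hs⟩ := htS _ hl
  obtain ⟨g₁, hg₁, j₀, hj₀, hgj⟩ := hJS j hj
  obtain ⟨g₂, hg₂, s₀, hgs⟩ := f1 R p s
  -- the radical
  let N : Submodule A R := ((Ring.jacobson S).restrictScalars A).comap ι.toLinearMap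
  have hN : ∀ x : R, x ∈ N ↔ ι x ∈ Ring.jacobson S := fun x => Iff.rfl
  refine ⟨g₁ * g₂, fun h => (hp.mem_or_mem h).elim hg₁ hg₂, N, fun x hx r => ⟨?_, ?_⟩, ?_, ?_⟩
  · rw [hN, map_mul]
    exact Ideal.mul_mem_right _ _ ((hN x).1 hx)
  · rw [hN, map_mul]
    exact Ideal.mul_mem_left _ _ ((hN x).1 hx)
  · obtain ⟨k, hk⟩ := IsSemiprimaryRing.isNilpotent (R := S)
    refine ⟨k, common p _ (IsNoetherian.noetherian _) fun x hx => f2 p x ?_⟩
    have key : ∀ k : ℕ, ∀ x ∈ N ^ k, ι x ∈ Ring.jacobson S ^ k := by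
      intro k
      induction k with
      | zero =>
        intro x _
        rw [Submodule.pow_zero, Ideal.one_eq_top]
        trivial
      | succ k ih =>
        intro x hx
        rw [pow_succ'] at hx
        rw [Ideal.IsTwoSided.pow_succ]
        refine Submodule.mul_induction_on hx (fun u hu w hw => ?_) (fun u w hu hw => ?_)
        · rw [map_mul]
          exact Ideal.mul_mem_mul ((hN u).1 hu) (ih w hw)
        · rw [map_add]
          exact add_mem hu hw
    have h1 := key k x hx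
    rw [hk] at h1
    exact h1
  · have hn : (g₁ * g₂) • a - g₂ • j₀ - g₁ • (s₀ * (y + t' * a)) ∈ N := by
      rw [hN]
      have e : ι ((g₁ * g₂) • a - g₂ • j₀ - g₁ • (s₀ * (y + t' * a))) =
          (g₁ * g₂) • (ι a - j - s * (ι y +
            (algebraMap A p.ResidueField (g * g₀)) • (tS * ι a))) := by
        have e1 : ι (g₂ • j₀) = (g₁ * g₂) • j := by
          rw [map_smul, ← hgj, smul_smul, mul_comm]
        have e2 : ι (g₁ • (s₀ * (y + t' * a))) = (g₁ * g₂) • (s * (ι y +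
            (algebraMap A p.ResidueField (g * g₀)) • (tS * ι a))) := by
          have e3 : ι s₀ = g₂ • s := hgs.symm
          rw [map_smul, map_mul, map_add, map_mul, hιt, e3, smul_mul_assoc, smul_mul_assoc,
            smul_smul]
        rw [map_sub, map_sub, e1, e2, map_smul, smul_sub, smul_sub]
      rw [e, Algebra.smul_def]
      exact Ideal.mul_mem_left _ _ hs
    have e : (g₁ * g₂) • a = (g₂ • j₀ + g₁ • (s₀ * (y + t' * a))) +
        ((g₁ * g₂) • a - g₂ • j₀ - g₁ • (s₀ * (y + t' * a))) := by abel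
    rw [e]
    exact Submodule.add_mem_sup (J'.add_mem (J'.smul_mem _ (hJJ' hj₀))
      (J'.smul_mem _ (hJ' _ hy _))) hn

/-! ## Finiteness of the exceptional primes -/

lemma toNat_lt [IsNoetherianRing A] {q p : Ideal A} [q.IsPrime] [hp : p.IsPrime] (h : q < p) :
    q.height + 1 ≤ p.height := Ideal.height_add_one_le_of_lt_of_isPrime h

lemma finite_exc [IsNoetherianRing A] (D : Ideal A → Prop) (hD : ∀ p, D p → p.IsPrime)
    (hsp : ∀ q : Ideal A, q.IsPrime → ¬ D q → ∃ f : A, f ∉ q ∧ ∀ p, D p → q ≤ p → f ∈ p)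
    (i : ℕ) (hi : ∀ p, D p → (i : ℕ∞) ≤ p.height) :
    {p : Ideal A | D p ∧ p.height ≤ i}.Finite := by
  have key : ∀ I : Ideal A, {p : Ideal A | (D p ∧ p.height ≤ i) ∧ I ≤ p}.Finite := by
    intro I
    refine WellFoundedGT.induction (α := Ideal A)
      (motive := fun I => {p : Ideal A | (D p ∧ p.height ≤ i) ∧ I ≤ p}.Finite) I fun I ih => ?_
    · by_cases hI : I.IsPrime
      · by_cases hDI : D I
        · refine (Set.finite_singleton I).subset ?_
          rintro p ⟨⟨hp, hpi⟩, hle⟩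
          have := hD p hp
          rw [Set.mem_singleton_iff]
          by_contra hne
          have h1 : I.height + 1 ≤ p.height := toNat_lt (lt_of_le_of_ne hle (Ne.symm hne))
          have h2 : ((i : ℕ∞) + 1) ≤ i := (add_le_add_left (hi I hDI) 1).trans (h1.trans hpi)
          have h3 : ((i + 1 : ℕ) : ℕ∞) ≤ (i : ℕ) := by exact_mod_cast h2
          have h4 := ENat.natCast_le_natCast.1 h3
          omega
        · obtain ⟨f, hf, hfp⟩ := hsp I hI hDI
          refine (ih (I ⊔ Ideal.span {f}) (lt_of_le_of_ne le_sup_left fun he => hf ?_)).subset ?_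
          · rw [he]
            exact Ideal.mem_sup_right (Ideal.mem_span_singleton_self f)
          · rintro p ⟨hp, hle⟩
            refine ⟨hp, sup_le hle ?_⟩
            rw [Ideal.span_le, Set.singleton_subset_iff]
            exact hfp p hp.1 hle
      · by_cases htop : I = ⊤
        · refine (Set.finite_empty).subset ?_
          rintro p ⟨hp, hle⟩
          exact (hD p hp.1).ne_top (top_le_iff.1 (htop ▸ hle))
        · rw [Ideal.isPrime_iff] at hI
          push Not at hI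
          obtain ⟨x, y, hxy, hx, hy⟩ := hI htop
          refine ((ih (I ⊔ Ideal.span {x}) (lt_of_le_of_ne le_sup_left fun he => hx ?_)).union
            (ih (I ⊔ Ideal.span {y}) (lt_of_le_of_ne le_sup_left fun he => hy ?_))).subset ?_
          · rw [he]
            exact Ideal.mem_sup_right (Ideal.mem_span_singleton_self x)
          · rw [he]
            exact Ideal.mem_sup_right (Ideal.mem_span_singleton_self y)
          · rintro p ⟨hp, hle⟩
            have hpp := hD p hp.1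
            rcases hpp.mem_or_mem (hle hxy) with h | h
            · refine Or.inl ⟨hp, sup_le hle ?_⟩
              rw [Ideal.span_le, Set.singleton_subset_iff]
              exact h
            · refine Or.inr ⟨hp, sup_le hle ?_⟩
              rw [Ideal.span_le, Set.singleton_subset_iff]
              exact h
  refine (key ⊥).subset fun p hp => ⟨hp, bot_le⟩

/-- pairwise incomparable primes -/
lemma crt (F : Finset (Ideal A)) (hF : ∀ p ∈ F, p.IsPrime)
    (hinc : ∀ p ∈ F, ∀ q ∈ F, q ≤ p → q = p) (τ : Ideal A → R) :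
    ∃ t : R, ∀ p ∈ F, ∃ g : A, g ∉ p ∧ t - g • τ p ∈ p • (⊤ : Submodule A R) := by
  classical
  have h1 : ∀ p ∈ F, ∃ g : A, g ∉ p ∧ ∀ q ∈ F, q ≠ p → g ∈ q := by
    intro p hp
    have hpp := hF p hp
    have hx : ∀ q ∈ F.erase p, ∃ u ∈ q, u ∉ p := by
      intro q hq
      by_contra hcon
      push Not at hcon
      exact (Finset.ne_of_mem_erase hq)
        (hinc p hp q (Finset.mem_of_mem_erase hq) fun u hu => hcon u hu)
    choose! w hw hwp using hx
    refine ⟨∏ q ∈ F.erase p, w q, ?_, fun q hq hqp => ?_⟩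
    · intro hmem
      obtain ⟨q, hq, hmem⟩ := (Ideal.IsPrime.prod_mem_iff (hp := hpp)).1 hmem
      exact hwp q hq hmem
    · have hq' : q ∈ F.erase p := Finset.mem_erase.2 ⟨hqp, hq⟩
      rw [← Finset.mul_prod_erase _ _ hq']
      exact q.mul_mem_right _ (hw q hq')
  choose! g hg hgq using h1
  refine ⟨∑ q ∈ F, g q • τ q, fun p hp => ⟨g p, hg p hp, ?_⟩⟩
  rw [← Finset.add_sum_erase _ _ hp, add_sub_cancel_left]
  refine Submodule.sum_mem _ fun q hq => ?_
  exact Submodule.smul_mem_smul (hgq q (Finset.mem_of_mem_erase hq) p hp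
    (Finset.ne_of_mem_erase hq).symm) trivial

/-! ## The induction -/

/-- the invariant after `i` steps -/
def Inv (i : ℕ) (a : R) (J : Submodule A R) : Prop :=
  ∀ p : Ideal A, p.IsPrime → ¬ Zp J a p → (i : ℕ∞) ≤ p.height

lemma step [IsNoetherianRing A] [Module.Finite A R] {i : ℕ} {a : R} {J : Submodule A R}
    (hJ : ∀ x ∈ J, ∀ r : R, r * x ∈ J) (hI : Inv i a J) (y : R) :
    ∃ t : R, ∀ J' : Submodule A R, J ≤ J' → (∀ x ∈ J', ∀ r : R, r * x ∈ J') →
      y + t * a ∈ J' → Inv (i + 1) a J' := by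
  classical
  have hfin := finite_exc (fun p : Ideal A => p.IsPrime ∧ ¬ Zp J a p) (fun p hp => hp.1)
    (fun q hq hnD => by
      have hZ : Zp J a q := by
        by_contra h
        exact hnD ⟨hq, h⟩
      obtain ⟨f, hf, h⟩ := hZ.spread
      exact ⟨f, hf, fun p hp hqp => h p hp.1 hqp hp.2⟩) i (fun p hp => hI p hp.1 hp.2)
  have hτ : ∀ p : Ideal A, p.IsPrime → ∃ t : R, ∀ g : A, g ∉ p → ∀ t' : R,
      t' - g • t ∈ p • (⊤ : Submodule A R) → ∀ J' : Submodule A R, J ≤ J' →
        (∀ x ∈ J', ∀ r : R, r * x ∈ J') → y + t' * a ∈ J' → Zp J' a p :=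
    fun p hp => step_at p J hJ y a
  choose! τ hτ using hτ
  obtain ⟨t, ht⟩ := crt (R := R) hfin.toFinset
    (fun p hp => ((Set.Finite.mem_toFinset _).1 hp).1.1) (fun p hp q hq hle => by
      have hp' := (Set.Finite.mem_toFinset _).1 hp
      have hq' := (Set.Finite.mem_toFinset _).1 hq
      have := hp'.1.1
      have := hq'.1.1
      by_contra hne
      have h1 : q.height + 1 ≤ p.height := toNat_lt (lt_of_le_of_ne hle hne)
      have h2 : ((i : ℕ∞) + 1) ≤ i :=
        (add_le_add_left (hI q hq'.1.1 hq'.1.2) 1).trans (h1.trans hp'.2)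
      have h3 : ((i + 1 : ℕ) : ℕ∞) ≤ (i : ℕ) := by exact_mod_cast h2
      have h4 := ENat.natCast_le_natCast.1 h3
      omega) τ
  refine ⟨t, fun J' hJJ' hJ' hy p hp hZ' => ?_⟩
  have hZ : ¬ Zp J a p := fun h => hZ' (h.mono hJJ')
  have h1 := hI p hp hZ
  by_contra hcon
  have h2 : p.height ≤ i := by
    rw [not_le] at hcon
    exact Order.lt_add_one_iff_of_not_isMax (by simp) |>.1 (by exact_mod_cast hcon)
  obtain ⟨g, hg, hgt⟩ := ht p ((Set.Finite.mem_toFinset _).2 ⟨⟨hp, hZ⟩, h2⟩)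
  exact hZ' (hτ p hp g hg t hgt J' hJJ' hJ' hy)

lemma chain [IsNoetherianRing A] [Module.Finite A R] (a : R) : ∀ (n : ℕ) (y : Fin n → R)
    (i : ℕ) (J : Submodule A R), (∀ x ∈ J, ∀ r : R, r * x ∈ J) → Inv i a J →
    ∃ (t : Fin n → R) (J' : Submodule A R), J ≤ J' ∧ (∀ x ∈ J', ∀ r : R, r * x ∈ J') ∧
      (∀ x ∈ J', ∃ v : Fin n → R, x - ∑ j, v j * (y j + t j * a) ∈ J) ∧
      (∀ j, y j + t j * a ∈ J') ∧ Inv (i + n) a J' := by
  intro n
  induction n with
  | zero =>
    intro y i J hJ hI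
    exact ⟨fun _ => 0, J, le_rfl, hJ, fun x hx => ⟨fun _ => 0, by simpa using hx⟩,
      fun j => j.elim0, hI⟩
  | succ n ih =>
    intro y i J hJ hI
    obtain ⟨t₀, ht₀⟩ := step hJ hI (y 0)
    set J₁ : Submodule A R := J ⊔ LinearMap.range (LinearMap.mulRight A (y 0 + t₀ * a)) with hJ₁
    have hy₁ : y 0 + t₀ * a ∈ J₁ := Submodule.mem_sup_right ⟨1, by simp⟩
    have hr₁ : ∀ x ∈ J₁, ∀ r : R, r * x ∈ J₁ := by
      intro x hx r
      obtain ⟨u, hu, v, ⟨w, rfl⟩, rfl⟩ := Submodule.mem_sup.1 hx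
      rw [mul_add]
      exact Submodule.add_mem_sup (hJ u hu r) ⟨r * w, by simp [mul_assoc]⟩
    obtain ⟨t, J', hle, hr, hv, hy, hI'⟩ := ih (fun j => y j.succ) (i + 1) J₁ hr₁
      (ht₀ J₁ le_sup_left hr₁ hy₁)
    refine ⟨Fin.cons t₀ t, J', le_sup_left.trans hle, hr, fun x hx => ?_, fun j => ?_, ?_⟩
    · obtain ⟨v, hv⟩ := hv x hx
      obtain ⟨u, hu, w', ⟨w, rfl⟩, huw⟩ := Submodule.mem_sup.1 hv
      refine ⟨Fin.cons w v, ?_⟩
      have e : x - ∑ j, (Fin.cons w v : Fin (n + 1) → R) j *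
          (y j + (Fin.cons t₀ t : Fin (n + 1) → R) j * a) = u := by
        rw [Fin.sum_univ_succ]
        simp only [Fin.cons_zero, Fin.cons_succ]
        rw [LinearMap.mulRight_apply] at huw
        rw [sub_add_eq_sub_sub_swap, ← huw]
        abel
      rw [e]
      exact hu
    · refine Fin.cases ?_ (fun j => ?_) j
      · simpa using hle hy₁
      · simpa using hy j
    · have : i + (n + 1) = i + 1 + n := by ring
      rw [this]
      exact hI'

/-! ## The end -/

lemma nil {J N : Submodule A R} (hJ : ∀ x ∈ J, ∀ r : R, r * x ∈ J)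
    (hN : ∀ x ∈ N, ∀ r : R, x * r ∈ N ∧ r * x ∈ N) {f : A} (h : ∀ x : R, f • x ∈ J ⊔ N) :
    ∀ (k : ℕ) (x : R), f ^ (k + 1) • x ∈ J ⊔ N ^ (k + 1) := by
  intro k
  induction k with
  | zero =>
    intro x
    rw [zero_add, pow_one, pow_one]
    exact h x
  | succ k ih =>
    intro x
    have h1 : ∀ w ∈ N ^ (k + 1), f • w ∈ J ⊔ N ^ (k + 1 + 1) := by
      intro w hw
      obtain ⟨j, hj, n, hn, hjn⟩ := Submodule.mem_sup.1 (h 1)
      have e : f • w = w * j + w * n := by
        rw [← mul_add, hjn, mul_smul_comm, mul_one]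
      rw [e]
      refine Submodule.add_mem_sup (hJ j hj w) ?_
      rw [pow_succ]
      exact Submodule.mul_mem_mul hw hn
    obtain ⟨j, hj, w, hw, hjw⟩ := Submodule.mem_sup.1 (ih x)
    rw [pow_succ' f, mul_smul, ← hjw, smul_add]
    exact Submodule.add_mem _ (Submodule.mem_sup_left (J.smul_mem _ hj)) (h1 w hw)

lemma finish [IsNoetherianRing A] [Module.Finite A R] {J : Submodule A R}
    (hJ : ∀ x ∈ J, ∀ r : R, r * x ∈ J) {a : R}
    (hZ : ∀ p : Ideal A, p.IsPrime → Zp J a p) (h1 : ∃ c : R, 1 - c * a ∈ J) : (1 : R) ∈ J := by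
  obtain ⟨c, hc⟩ := h1
  let K : Ideal A := J.comap (LinearMap.toSpanSingleton A R 1)
  have hK : K = ⊤ := by
    by_contra hne
    obtain ⟨p, hp, hle⟩ := Ideal.exists_le_maximal K hne
    have hpp := hp.isPrime
    obtain ⟨f, hf, N, hN, ⟨k, h, hh, hk⟩, hfa⟩ := hZ p hpp
    have hsup : ∀ x ∈ J ⊔ N, ∀ r : R, r * x ∈ J ⊔ N := by
      intro x hx r
      obtain ⟨j, hj, n, hn, rfl⟩ := Submodule.mem_sup.1 hx
      rw [mul_add]
      exact Submodule.add_mem_sup (hJ j hj r) (hN n hn r).2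
    have h2 : ∀ x : R, f • x ∈ J ⊔ N := by
      intro x
      have e : f • x = f • (x * (1 - c * a)) + (x * c) * (f • a) := by
        rw [mul_smul_comm, ← smul_add]
        congr 1
        noncomm_ring
      rw [e]
      exact Submodule.add_mem _ (Submodule.mem_sup_left (J.smul_mem _ (hJ _ hc x)))
        (hsup _ hfa _)
    have h3 : ∀ x ∈ N ^ (k + 1), h • x ∈ p • (⊤ : Submodule A R) := by
      intro x hx
      rw [pow_succ] at hx
      refine Submodule.mul_induction_on hx (fun u hu w hw => ?_) (fun u w hu hw => ?_)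
      · rw [← smul_mul_assoc]
        refine Submodule.smul_induction_on (hk u hu) (fun b hb n _ => ?_) (fun x y hx hy => ?_)
        · rw [smul_mul_assoc]
          exact Submodule.smul_mem_smul hb trivial
        · rw [add_mul]
          exact Submodule.add_mem _ hx hy
      · rw [smul_add]
        exact Submodule.add_mem _ hu hw
    have h4 : ∀ x : R, (h * f ^ (k + 1)) • x ∈ J ⊔ p • (⊤ : Submodule A R) := by
      intro x
      obtain ⟨j, hj, w, hw, hjw⟩ := Submodule.mem_sup.1 (nil hJ hN h2 k x)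
      rw [mul_smul, ← hjw, smul_add]
      exact Submodule.add_mem_sup (J.smul_mem _ hj) (h3 w hw)
    have h5 : h * f ^ (k + 1) ∉ p := fun hm =>
      (hpp.mem_or_mem hm).elim hh fun hm => hf (hpp.mem_of_pow_mem _ hm)
    -- Nakayama
    let M := R ⧸ J
    have h6 : (⊤ : Submodule A M) ≤ p • (⊤ : Submodule A M) := by
      intro m _
      obtain ⟨x, rfl⟩ := Submodule.mkQ_surjective J m
      obtain ⟨u, v, hv, huv⟩ := hp.exists_inv h5
      obtain ⟨j, hj, w, hw, hjw⟩ := Submodule.mem_sup.1 (h4 x)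
      have h7 : J.mkQ w ∈ p • (⊤ : Submodule A M) := by
        refine Submodule.smul_induction_on hw (fun b hb n _ => ?_) (fun x y hx hy => ?_)
        · rw [map_smul]
          exact Submodule.smul_mem_smul hb trivial
        · rw [map_add]
          exact Submodule.add_mem _ hx hy
      have e : J.mkQ x = u • J.mkQ w + v • J.mkQ x := by
        have e1 : J.mkQ w = (h * f ^ (k + 1)) • J.mkQ x := by
          rw [← map_smul, ← hjw, map_add]
          have : J.mkQ j = 0 := by
            rw [Submodule.mkQ_apply, Submodule.Quotient.mk_eq_zero]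
            exact hj
          rw [this, zero_add]
        rw [e1, ← mul_smul, ← add_smul, huv, one_smul]
      rw [e]
      exact Submodule.add_mem _ (Submodule.smul_mem _ _ h7) (Submodule.smul_mem_smul hv trivial)
    obtain ⟨r, hr1, hr2⟩ := Submodule.exists_sub_one_mem_and_smul_eq_zero_of_fg_of_le_smul p
      (⊤ : Submodule A M) Module.Finite.fg_top h6
    have h8 : r • (1 : R) ∈ J := by
      rw [← Submodule.Quotient.mk_eq_zero]
      exact hr2 (J.mkQ 1) trivial
    have h9 : r ∈ p := hle (by simpa [K] using h8)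
    have h10 := p.sub_mem h9 hr1
    rw [sub_sub_cancel] at h10
    exact hpp.ne_top ((Ideal.eq_top_iff_one _).2 h10)
  have : (1 : A) ∈ K := by rw [hK]; trivial
  simpa [K] using this

/-- Bass' stable range theorem, for left unimodular rows -/
theorem bass_left (A R : Type) [CommRing A] [IsNoetherianRing A] [Ring R] [Algebra A R]
    [Module.Finite A R] (d : ℕ) (hd : ∀ p : Ideal A, p.IsPrime → p.height ≤ d)
    (y : Fin (d + 1) → R) (a : R) (h : ∃ (b : Fin (d + 1) → R) (c : R),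
      ∑ i, b i * y i + c * a = 1) :
    ∃ t v : Fin (d + 1) → R, ∑ i, v i * (y i + t i * a) = 1 := by
  obtain ⟨b, c, hbc⟩ := h
  have hI0 : Inv 0 a (⊥ : Submodule A R) := fun p hp _ => by simp
  obtain ⟨t, J', -, hr, hv, hy, hI⟩ := chain a (d + 1) y 0 (⊥ : Submodule A R)
    (fun x hx r => by simp only [Submodule.mem_bot] at hx ⊢; rw [hx, mul_zero]) hI0
  have hZ : ∀ p : Ideal A, p.IsPrime → Zp J' a p := by
    intro p hp
    by_contra hcon
    have h1 := (hI p hp hcon).trans (hd p hp)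
    have h2 := ENat.natCast_le_natCast.1 h1
    omega
  have h1 : (1 : R) ∈ J' := by
    refine finish hr hZ ⟨c - ∑ i, b i * t i, ?_⟩
    have e : 1 - (c - ∑ i, b i * t i) * a = ∑ i, b i * (y i + t i * a) := by
      rw [← hbc]
      simp only [mul_add, Finset.sum_add_distrib, sub_mul, Finset.sum_mul, mul_assoc]
      abel
    rw [e]
    exact Submodule.sum_mem _ fun i _ => hr _ (hy i) _
  obtain ⟨v, hv⟩ := hv 1 h1
  refine ⟨t, v, ?_⟩
  rw [Submodule.mem_bot, sub_eq_zero] at hv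
  exact hv.symm

/-- Bass' stable range condition (for right unimodular rows). -/
def SR (R : Type) [Ring R] (n : ℕ) : Prop :=
  ∀ (y : Fin n → R) (a : R), (∃ (b : Fin n → R) (c : R), ∑ i, y i * b i + a * c = 1) →
    ∃ t v : Fin n → R, ∑ i, (y i + a * t i) * v i = 1

/-- Bass' stable range theorem -/
theorem bass2 (A R : Type) [CommRing A] [IsNoetherianRing A] [Ring R] [Algebra A R]
    [Module.Finite A R] (d : ℕ) (hd : ∀ p : Ideal A, p.IsPrime → p.height ≤ d) : SR R (d + 1) := by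
  intro y a ⟨b, c, hbc⟩
  have hfin : Module.Finite A Rᵐᵒᵖ := Module.Finite.equiv (MulOpposite.opLinearEquiv A)
  obtain ⟨t, v, h⟩ := bass_left A Rᵐᵒᵖ d hd (fun i => MulOpposite.op (y i)) (MulOpposite.op a)
    ⟨fun i => MulOpposite.op (b i), MulOpposite.op c, by
      rw [← MulOpposite.op_one, ← hbc]
      simp⟩
  refine ⟨fun i => (t i).unop, fun i => (v i).unop, ?_⟩
  have h' := congrArg MulOpposite.unop h
  simpa using h'

end Vale.Agent.P246.R2.H31B2
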