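import Mathlib

/-! # P246, row B2, part 1: semisimple rings -/

namespace Vale.Agent.P246.R2.H31S

section SS

variable {T : Type} [Ring T] [IsSemisimpleRing T]

/-- left ideals are generated by idempotents -/
lemma exists_idem (I : Submodule T T) : ∃ e ∈ I, ∀ x ∈ I, x * e = x := by
  obtain ⟨I', hI'⟩ := exists_isCompl I
  obtain ⟨e, he, f, hf, hef⟩ := Submodule.mem_sup.1
    (show (1 : T) ∈ I ⊔ I' by rw [hI'.sup_eq_top]; trivial)
  refine ⟨e, he, fun x hx => ?_⟩
  have h1 : x * f = x - x * e := by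
    rw [eq_sub_iff_add_eq, ← mul_add, add_comm f e, hef, mul_one]
  have h2 : x * f ∈ I := by rw [h1]; exact I.sub_mem hx (I.smul_mem x he)
  have h3 : x * f ∈ I' := I'.smul_mem x hf
  have h4 : x * f = 0 := Submodule.disjoint_def.1 hI'.disjoint _ h2 h3
  rw [h4] at h1
  exact (sub_eq_zero.1 h1.symm).symm

/-- two-sided ideals are generated by central idempotents -/
lemma exists_central (I : Submodule T T) (hI : ∀ x ∈ I, ∀ t : T, x * t ∈ I) :
    ∃ z : T, (∀ x ∈ I, x * z = 0) ∧ (∀ x ∈ I, z * x = 0) ∧ 1 - z ∈ I := by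
  obtain ⟨e, he, hxe⟩ := exists_idem I
  have h1 : ∀ x ∈ I, x * (1 - e) = 0 := fun x hx => by rw [mul_sub, mul_one, hxe x hx, sub_self]
  refine ⟨1 - e, h1, fun x hx => ?_, by rwa [sub_sub_cancel]⟩
  let N : Submodule T T :=
    { carrier := {w | w ∈ I ∧ ∀ x ∈ I, x * w = 0}
      add_mem' := fun {a b} ha hb => ⟨I.add_mem ha.1 hb.1, fun x hx => by
        rw [mul_add, ha.2 x hx, hb.2 x hx, add_zero]⟩
      zero_mem' := ⟨I.zero_mem, fun x _ => mul_zero x⟩
      smul_mem' := fun t w hw => ⟨I.smul_mem t hw.1, fun x hx => by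
        rw [smul_eq_mul, ← mul_assoc]
        exact hw.2 _ (hI x hx t)⟩ }
  obtain ⟨ε, hε, hwε⟩ := exists_idem N
  have hN : ∀ w ∈ N, w = 0 := fun w hw => by
    rw [← hwε w hw]
    exact hε.2 w hw.1
  refine hN _ ⟨?_, fun y hy => ?_⟩
  · rw [sub_mul, one_mul]
    exact I.sub_mem hx (I.smul_mem e hx)
  · rw [← mul_assoc, h1 y hy, zero_mul]

variable {M : Type} [AddCommGroup M] [Module T M]

open Submodule in
lemma one_step (m₁ : M) (hm : ∀ m : M, ∃ r : T, r • m₁ = m) (u v : M) (hv : v ∉ span T {u}) :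
    ∃ t : T, t • v ≠ 0 ∧ Disjoint (span T {u}) (span T {t • v}) ∧ t • v ∈ span T {u + t • v} := by
  obtain ⟨D, hD⟩ := exists_isCompl (span T {v} ⊓ span T {u})
  -- the complement
  have hC1 : ∀ c ∈ D ⊓ span T {v}, c ∈ span T {u} → c = 0 := fun c hc hcu =>
    disjoint_def.1 hD.disjoint c ⟨hc.2, hcu⟩ hc.1
  have hC3 : ∃ c ∈ D ⊓ span T {v}, c ≠ 0 := by
    by_contra hcon
    push Not at hcon
    obtain ⟨a, ha, b, hb, hab⟩ := mem_sup.1
      (show v ∈ (span T {v} ⊓ span T {u}) ⊔ D by rw [hD.sup_eq_top]; trivial)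
    have hbv : b ∈ span T {v} := by
      have : b = v - a := by rw [← hab]; abel
      rw [this]
      exact sub_mem (mem_span_singleton_self v) ha.1
    rw [hcon b ⟨hb, hbv⟩, add_zero] at hab
    exact hv (hab ▸ ha.2)
  obtain ⟨e, he, hxe⟩ := exists_idem (LinearMap.ker (LinearMap.toSpanSingleton T M u))
  have heu : e • u = 0 := he
  have hxe' : ∀ x : T, x • u = 0 → x * e = x := fun x hx => hxe x hx
  by_cases h : ∃ c ∈ D ⊓ span T {v}, e • c ≠ 0
  · obtain ⟨c, hc, hec⟩ := h
    obtain ⟨t₀, ht₀⟩ := mem_span_singleton.1 hc.2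
    have htv : (e * t₀) • v = e • c := by rw [mul_smul, ht₀]
    refine ⟨e * t₀, by rwa [htv], ?_, ?_⟩
    · rw [disjoint_def]
      intro w hw hw'
      refine hC1 w ?_ hw
      rw [htv] at hw'
      obtain ⟨a, rfl⟩ := mem_span_singleton.1 hw'
      exact smul_mem _ _ (smul_mem _ _ hc)
    · rw [htv, mem_span_singleton]
      refine ⟨e, ?_⟩
      rw [smul_add, heu, zero_add, ← mul_smul, hxe' e heu]
  · push Not at h
    exfalso
    let I : Submodule T T := span T (Set.range fun t => e * t)
    have hI : ∀ x ∈ I, ∀ t : T, x * t ∈ I := by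
      intro x hx t
      refine span_induction (p := fun x _ => x * t ∈ I) ?_ ?_ ?_ ?_ hx
      · rintro _ ⟨s, rfl⟩
        exact subset_span ⟨s * t, by simp [mul_assoc]⟩
      · rw [zero_mul]; exact I.zero_mem
      · intro a b _ _ ha hb
        rw [add_mul]
        exact I.add_mem ha hb
      · intro a b _ hb
        rw [smul_eq_mul, mul_assoc]
        exact I.smul_mem a hb
    have hIC : ∀ x ∈ I, ∀ c ∈ D ⊓ span T {v}, x • c = 0 := by
      intro x hx c hc
      refine span_induction (p := fun x _ => x • c = 0) ?_ ?_ ?_ ?_ hx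
      · rintro _ ⟨s, rfl⟩
        change (e * s) • c = 0
        rw [mul_smul]
        exact h _ (smul_mem _ _ hc)
      · exact zero_smul _ _
      · intro a b _ _ ha hb
        rw [add_smul, ha, hb, add_zero]
      · intro a b _ hb
        rw [smul_eq_mul, mul_smul, hb, smul_zero]
    obtain ⟨z, hz1, hz2, hz3⟩ := exists_central I hI
    have hcen : ∀ t : T, z * t = t * z := by
      intro t
      have h1 : z * (t * (1 - z)) = 0 := hz2 _ (I.smul_mem t hz3)
      have h2 : ((1 - z) * t) * z = 0 := hz1 _ (hI _ hz3 t)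
      have h3 : z * t = z * t * z := by
        rw [mul_sub, mul_one, mul_sub, sub_eq_zero] at h1
        rw [mul_assoc]
        exact h1
      have h4 : t * z = z * t * z := by
        rw [sub_mul, one_mul, sub_mul, sub_eq_zero] at h2
        exact h2
      rw [h3, ← h4]
    have hzz : z * z = z := by
      have := hz1 _ hz3
      rw [sub_mul, one_mul, sub_eq_zero] at this
      exact this.symm
    obtain ⟨c, hc, hc0⟩ := hC3
    obtain ⟨r, hr⟩ := hm u
    obtain ⟨s, hs⟩ := hm c
    have hzc : z • c = c := by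
      have := hIC _ hz3 c hc
      rw [sub_smul, one_smul, sub_eq_zero] at this
      exact this.symm
    let V : Submodule T T := LinearMap.ker (LinearMap.toSpanSingleton T T (1 - z))
    have hV : ∀ x : T, x ∈ V ↔ x * z = x := by
      intro x
      change x * (1 - z) = 0 ↔ _
      rw [mul_sub, mul_one, sub_eq_zero, eq_comm]
    let φ : V →ₗ[T] V := (LinearMap.toSpanSingleton T T r).restrict (p := V) (q := V) (by
      intro x hx
      rw [hV] at hx ⊢
      change x * r * z = x * r
      rw [mul_assoc, ← hcen, ← mul_assoc, hx])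
    have hφ : Function.Injective φ := by
      rw [injective_iff_map_eq_zero]
      rintro ⟨x, hx⟩ h0
      have h0' : x * r = 0 := congrArg Subtype.val h0
      have hxu : x • u = 0 := by rw [← hr, ← mul_smul, h0', zero_smul]
      have h1 := hxe' x hxu
      have h2 : e * z = 0 := hz1 e (subset_span ⟨1, by simp⟩)
      apply Subtype.ext
      change x = 0
      rw [← (hV x).1 hx, ← h1, mul_assoc, h2, mul_zero]
    obtain ⟨⟨x, hx⟩, hxs⟩ := IsArtinian.surjective_of_injective_endomorphism φ hφ
      ⟨z * s, (hV _).2 (by rw [mul_assoc, ← hcen s, ← mul_assoc, hzz])⟩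
    have hxs' : x * r = z * s := congrArg Subtype.val hxs
    refine hc0 (hC1 c hc ?_)
    rw [mem_span_singleton]
    refine ⟨x, ?_⟩
    rw [← hr, ← mul_smul, hxs', mul_smul, hs, hzc]

open Submodule in
lemma exists_good (m₁ : M) (hm : ∀ m : M, ∃ r : T, r • m₁ = m) [IsNoetherian T M] (u v : M) :
    ∃ t : T, Disjoint (span T {u}) (span T {t • v}) ∧ t • v ∈ span T {u + t • v} ∧
      v ∈ span T {u + t • v} := by
  let NN : Set (Submodule T M) := {N | ∃ t : T, Disjoint (span T {u}) (span T {t • v}) ∧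
    t • v ∈ span T {u + t • v} ∧ N = span T {u + t • v}}
  have hne : NN.Nonempty := ⟨span T {u + (0 : T) • v}, 0, by
    rw [zero_smul, span_zero_singleton]; exact disjoint_bot_right, by
    rw [zero_smul]; exact zero_mem _, rfl⟩
  obtain ⟨N, ⟨t, h1, h2, rfl⟩, hmax⟩ := (wellFounded_gt (α := Submodule T M)).has_min NN hne
  refine ⟨t, h1, h2, ?_⟩
  by_contra hv
  obtain ⟨t', h0', h1', h2'⟩ := one_step m₁ hm (u + t • v) v hv
  have hu : u ∈ span T {u + t • v} := by
    have h := sub_mem (mem_span_singleton_self (R := T) (u + t • v)) h2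
    rwa [add_sub_cancel_right] at h
  have e1 : u + (t + t') • v = (u + t • v) + t' • v := by rw [add_smul]; abel
  have hu' : u + t • v ∈ span T {(u + t • v) + t' • v} := by
    have h := sub_mem (mem_span_singleton_self (R := T) ((u + t • v) + t' • v)) h2'
    rwa [add_sub_cancel_right] at h
  have hle : span T {u + t • v} ≤ span T {(u + t • v) + t' • v} := by
    rw [span_le, Set.singleton_subset_iff]
    exact hu'
  refine hmax (span T {(u + t • v) + t' • v}) ⟨t + t', ?_, ?_, by rw [e1]⟩ ?_
  · rw [disjoint_def]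
    intro w hw hw'
    obtain ⟨a, rfl⟩ := mem_span_singleton.1 hw
    obtain ⟨b, hb⟩ := mem_span_singleton.1 hw'
    have h3 : b • t' • v = a • u - b • t • v := by
      rw [← hb, add_smul, smul_add]
      abel
    have h4 : b • t' • v = 0 := by
      refine disjoint_def.1 h1' _ ?_ (smul_mem _ _ (mem_span_singleton_self _))
      rw [h3]
      exact sub_mem (smul_mem _ _ hu) (smul_mem _ _ h2)
    rw [h4] at h3
    have h5 : a • u = b • t • v := (sub_eq_zero.1 h3.symm)
    refine disjoint_def.1 h1 _ (smul_mem _ _ (mem_span_singleton_self _)) ?_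
    rw [h5]
    exact smul_mem _ _ (mem_span_singleton_self _)
  · rw [e1, add_smul]
    exact add_mem (hle h2) h2'
  · refine lt_of_le_of_ne hle fun heq => h0' ?_
    refine disjoint_def.1 h1' _ ?_ (mem_span_singleton_self _)
    rw [heq]
    exact h2'

open Submodule in
/-- the good element remains good after scaling -/
lemma scale (u v : M) (t : T) (h1 : Disjoint (span T {u}) (span T {t • v}))
    (h2 : t • v ∈ span T {u + t • v}) (h3 : v ∈ span T {u + t • v}) (c c' : T)
    (hc : ∀ x : T, c * x = x * c) (hcc : c' * c = 1) : v ∈ span T {u + c • t • v} := by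
  obtain ⟨w, hw⟩ := mem_span_singleton.1 h2
  have h4 : w • u = 0 := by
    refine disjoint_def.1 h1 _ (smul_mem _ _ (mem_span_singleton_self _)) ?_
    have : w • u = t • v - w • t • v := by rw [eq_sub_iff_add_eq, ← smul_add, hw]
    rw [this]
    exact sub_mem (mem_span_singleton_self _) (smul_mem _ _ (mem_span_singleton_self _))
  have h5 : w • t • v = t • v := by rw [smul_add, h4, zero_add] at hw; exact hw
  have h6 : c • t • v ∈ span T {u + c • t • v} := by
    rw [mem_span_singleton]
    refine ⟨w, ?_⟩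
    rw [smul_add, h4, zero_add, ← mul_smul w c, ← hc, mul_smul, h5]
  have h7 : t • v ∈ span T {u + c • t • v} := by
    have h : c' • c • t • v = t • v := by rw [← mul_smul c' c, hcc, one_smul]
    have h' := smul_mem _ c' h6
    rwa [h] at h'
  have h8 : u ∈ span T {u + c • t • v} := by
    have h := sub_mem (mem_span_singleton_self (R := T) (u + c • t • v)) h6
    rwa [add_sub_cancel_right] at h
  obtain ⟨x, hx⟩ := mem_span_singleton.1 h3
  have h9 := smul_mem _ x (add_mem h8 h7)
  rwa [hx] at h9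

end SS

/-! ## Finite-dimensional algebras -/

section FD

variable (K : Type) {S : Type} [Field K] [Ring S] [Algebra K S] [Module.Finite K S]

include K in
lemma artin : IsArtinianRing S := IsArtinianRing.of_finite K S

lemma fd (J : Submodule S S) (y x : S) : ∃ t : S, ∀ l : K, l ≠ 0 → ∃ j ∈ J, ∃ s : S,
    x - j - s * (y + l • (t * x)) ∈ Ring.jacobson S := by
  have := artin K (S := S)
  let T := S ⧸ Ring.jacobson S
  let π : S →+* T := Ideal.Quotient.mk (Ring.jacobson S)
  have hπ : Function.Surjective π := Ideal.Quotient.mk_surjective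
  let JT : Ideal T := Ideal.map π J
  have hJT : ∀ a : T, a ∈ JT → ∃ j ∈ J, π j = a := fun a ha =>
    (Ideal.mem_map_iff_of_surjective π hπ).1 ha
  let M := T ⧸ JT
  let q : T →ₗ[T] M := Submodule.mkQ JT
  have hm : ∀ m : M, ∃ r : T, r • q 1 = m := by
    intro m
    obtain ⟨r, rfl⟩ := Submodule.mkQ_surjective JT m
    exact ⟨r, by rw [← map_smul, smul_eq_mul, mul_one]⟩
  obtain ⟨t', h1, h2, h3⟩ := exists_good (q 1) hm (q (π y)) (q (π x))
  obtain ⟨t, rfl⟩ := hπ t'
  refine ⟨t, fun l hl => ?_⟩
  have h4 := scale _ _ _ h1 h2 h3 (π (algebraMap K S l)) (π (algebraMap K S l⁻¹)) (by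
    intro a
    obtain ⟨a, rfl⟩ := hπ a
    rw [← map_mul, ← map_mul, Algebra.commutes]) (by
    rw [← map_mul, ← map_mul, inv_mul_cancel₀ hl, map_one, map_one])
  obtain ⟨s', hs'⟩ := Submodule.mem_span_singleton.1 h4
  obtain ⟨s, rfl⟩ := hπ s'
  have h5 : q (π (x - s * (y + l • (t * x)))) = 0 := by
    have e : π (s * (y + l • (t * x))) =
        π s • (π y + π (algebraMap K S l) • π t • π x) := by
      simp only [smul_eq_mul, map_mul, map_add, Algebra.smul_def]
    rw [map_sub π, map_sub q, e, map_smul q, map_add q, map_smul q, map_smul q, hs', sub_self]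
  have h6 : π (x - s * (y + l • (t * x))) ∈ JT := (Submodule.Quotient.mk_eq_zero JT).1 h5
  obtain ⟨j, hj, hj'⟩ := hJT _ h6
  refine ⟨j, hj, s, ?_⟩
  rw [← Ideal.Quotient.eq_zero_iff_mem]
  change π _ = 0
  have e : x - j - s * (y + l • (t * x)) = (x - s * (y + l • (t * x))) - j := by abel
  rw [e, map_sub π, hj', sub_self]

end FD

end Vale.Agent.P246.R2.H31S
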