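import Vale.Agent.P246.R2.H31.TopChi
import Vale.Agent.P246.R2.H429.Defs4

/-! # P246, row TW5: the algebraic complex of the covering of the wedge -/

set_option linter.all false

namespace Vale.Agent.P246.R2.H31V

open Topology Metric Set Vale.Agent.P246 Vale.Agent.P246.T Vale.Agent.P246.H429

section

variable {G E F : Type} [Group G] [TopologicalSpace E] [MulAction G E] [ContinuousConstSMul G E]
  [TopologicalSpace F] [MulAction G F] [ContinuousConstSMul G F] (ι : C(E, F))
  (hg : ∀ (g : G) e, ι (g • e) = g • ι e)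

/-- the push forward along `ι` -/
noncomputable def pl (n : ℕ) : SC G n E →ₗ[ZG G] SC G n F where
  toFun c := SC.mk G (push ι n c.un)
  map_add' a b := map_add (push ι n) a.un b.un
  map_smul' r c := push_smul ι hg n r c

theorem pl_d (n : ℕ) (x : SC G (n + 1) E) :
    SC.d G n F (pl ι hg (n + 1) x) = pl ι hg n (SC.d G n E x) := push_bd ι n x.un

variable (hi : Function.Injective ι)

include hi in
theorem pl_inj (n : ℕ) : Function.Injective (pl ι hg n) := by
  have h : Function.Injective (Finsupp.mapDomain (M := ℤ)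
      fun σ : C(Dl (n + 1), E) => ι.comp σ) := by
    refine Finsupp.mapDomain_injective fun a b hab => ?_
    ext z
    exact hi (DFunLike.congr_fun hab z)
  exact h

theorem exists_pl (hι : IsEmbedding ι) {A : Set F} (hA : range ι = A) (n : ℕ) (x : SC G n F)
    (hx : x.un ∈ Con A n) : ∃ y, pl ι hg n y = x := by
  have key : ∀ c : Ch n F, c ∈ Con A n → ∃ y : Ch n E, push ι n y = c := by
    intro c hc
    refine PR.Con_ind (P := fun c => ∃ y : Ch n E, push ι n y = c) ?_ ?_ ?_ hc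
    · exact ⟨0, map_zero _⟩
    · rintro a b ⟨y, rfl⟩ ⟨z, rfl⟩
      exact ⟨y + z, map_add _ _ _⟩
    · intro m σ hσ
      have hσ' : ∀ z, σ z ∈ range ι := fun z => hA ▸ hσ z
      let σ' : C(Dl (n + 1), E) := ⟨fun z => hι.toHomeomorph.symm ⟨σ z, hσ' z⟩,
        hι.toHomeomorph.symm.continuous.comp (σ.continuous.subtype_mk _)⟩
      refine ⟨Finsupp.single σ' m, ?_⟩
      rw [push_single]
      congr 1
      ext z
      have h1 := hι.toHomeomorph.apply_symm_apply ⟨σ z, hσ' z⟩
      exact congrArg Subtype.val h1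
  obtain ⟨y, hy⟩ := key x.un hx
  exact ⟨SC.mk G y, hy⟩

theorem dcyc_iff (n : ℕ) (x : SC G n E) (hi : Function.Injective ι) :
    DCyc (fun n => SC G n F) (fun n => SC.d G n F) n (pl ι hg n x) ↔
      DCyc (fun n => SC G n E) (fun n => SC.d G n E) n x := by
  cases n with
  | zero => exact Iff.rfl
  | succ n =>
    change SC.d G n F (pl ι hg (n + 1) x) = 0 ↔ SC.d G n E x = 0
    rw [pl_d]
    constructor
    · intro h
      exact pl_inj ι hg hi n (h.trans (map_zero _).symm)
    · intro h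
      rw [h, map_zero]

end

section Alg

variable {R M : Type} [Ring R] [AddCommGroup M] [Module R M]

/-- the sum of two independent submodules -/
noncomputable def supEquiv {P Z : Submodule R M} (h : Disjoint P Z) :
    (P × Z) ≃ₗ[R] (P ⊔ Z : Submodule R M) :=
  (LinearEquiv.ofInjective (P.subtype.coprod Z.subtype) (by
    rw [injective_iff_map_eq_zero]
    rintro ⟨x, z⟩ hxz
    have h1 : (x : M) + z = 0 := hxz
    have h2 : (x : M) ∈ Z := by
      rw [eq_neg_of_add_eq_zero_left h1]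
      exact Z.neg_mem z.2
    have h3 : (x : M) = 0 := Submodule.disjoint_def.1 h _ x.2 h2
    rw [h3, zero_add] at h1
    exact Prod.ext (Subtype.ext h3) (Subtype.ext h1))).trans
  (LinearEquiv.ofEq _ _ (by
    rw [LinearMap.range_coprod, Submodule.range_subtype, Submodule.range_subtype]))

theorem supEquiv_apply {P Z : Submodule R M} (h : Disjoint P Z) (x : P × Z) :
    ((supEquiv h x : (P ⊔ Z : Submodule R M)) : M) = x.1 + x.2 := rfl

theorem powAdd (a b : ℕ) : Nonempty (((Fin a → R) × (Fin b → R)) ≃ₗ[R] (Fin (a + b) → R)) :=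
  ⟨(LinearEquiv.sumArrowLequivProdArrow (Fin a) (Fin b) R R).symm.trans
    (LinearEquiv.funCongrLeft R R finSumFinEquiv.symm)⟩

end Alg

theorem euler_update (ν : ℕ → ℕ) (N t : ℕ) (hN : ∀ i, N ≤ i → ν i = 0) :
    ∑ i ∈ Finset.range N, (-1 : ℤ) ^ i * ν i + t =
      ∑ i ∈ Finset.range (N + 3), (-1 : ℤ) ^ i * (Function.update ν 2 (ν 2 + t) i : ℕ) := by
  have h1 : ∑ i ∈ Finset.range N, (-1 : ℤ) ^ i * (ν i : ℤ) =
      ∑ i ∈ Finset.range (N + 3), (-1 : ℤ) ^ i * (ν i : ℤ) := by
    refine Finset.sum_subset (Finset.range_subset_range.2 (by omega)) fun i _ hi => ?_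
    rw [hN i (by simpa using hi), Nat.cast_zero, mul_zero]
  have h2 : ∀ i, (-1 : ℤ) ^ i * (Function.update ν 2 (ν 2 + t) i : ℕ) =
      (-1 : ℤ) ^ i * (ν i : ℤ) + if i = 2 then (t : ℤ) else 0 := by
    intro i
    by_cases hi : i = 2
    · subst hi
      rw [Function.update_self, if_pos rfl]
      push_cast
      ring
    · rw [Function.update_of_ne hi, if_neg hi, add_zero]
  rw [h1, Finset.sum_congr rfl fun i _ => h2 i, Finset.sum_add_distrib, Finset.sum_ite_eq',
    if_pos (Finset.mem_range.2 (by omega))]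

theorem tw5 : SpecAlgW := by
  intro hCh G W E F _ _ _ _ _ _ _ _ _ _ _ q hq C t ι hC hsph hι hιr hg hhigh h3 hfree P ν N hP hν hN
  have hi : Function.Injective ι := hι.injective
  -- the model over `C`
  let PF : ∀ n, Submodule (ZG G) (SC G n F) := fun n => (P n).map (pl ι hg n)
  have hmemA : ∀ n (y : SC G n E), pl ι hg n y ∈ Step.SA hq C n := by
    intro n y
    rw [Step.mem_SA]
    exact push_mem (A := univ) (fun x _ => by rw [← hιr]; exact ⟨x, rfl⟩) (PR.Con_univ _)
  have hlift : ∀ n (x : SC G n F), x ∈ Step.SA hq C n → ∃ y, pl ι hg n y = x := fun n x hx =>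
    exists_pl ι hg hι hιr n x ((Step.mem_SA hq C n x).1 hx)
  let e : ∀ n, P n ≃ₗ[ZG G] PF n := fun n =>
    Submodule.equivMapOfInjective (pl ι hg n) (pl_inj ι hg hi n) (P n)
  have he : ∀ n (y : P n), ((e n y : PF n) : SC G n F) = pl ι hg n y.1 := fun n y => rfl
  have hPF : IsFinModel (fun n => SC G n F) (fun n => SC.d G n F) (Step.SA hq C) PF :=
    { le := by
        rintro n _ ⟨y, _, rfl⟩
        exact hmemA n y
      d_mem := by
        rintro n _ ⟨y, hy, rfl⟩
        exact ⟨SC.d G n E y, hP.d_mem n y hy, (pl_d ι hg n y).symm⟩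
      inj := by
        rintro n _ ⟨x, hx, rfl⟩ hc ⟨y, hy, hyx⟩
        obtain ⟨y, rfl⟩ := hlift _ y hy
        have h1 : SC.d G n E y = x := pl_inj ι hg hi n ((pl_d ι hg n y).symm.trans hyx)
        obtain ⟨y', hy', h2⟩ := hP.inj n x hx ((dcyc_iff ι hg n x hi).1 hc) ⟨y, trivial, h1⟩
        refine ⟨pl ι hg (n + 1) y', ⟨y', hy', rfl⟩, ?_⟩
        rw [← h2]
        exact pl_d ι hg n y'
      surj := by
        intro n x hx hc
        obtain ⟨x, rfl⟩ := hlift _ x hx
        obtain ⟨y, hy, hyc, z, _, hz⟩ := hP.surj n x trivial ((dcyc_iff ι hg n x hi).1 hc)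
        refine ⟨pl ι hg n y, ⟨y, hy, rfl⟩, (dcyc_iff ι hg n y hi).2 hyc, pl ι hg (n + 1) z,
          hmemA _ z, ?_⟩
        rw [pl_d, ← map_add]
        exact congrArg _ hz
      free := fun n => by
        have := hP.free n
        exact Module.Free.of_equiv (e n)
      fin := fun n => by
        have := hP.fin n
        exact Module.Finite.equiv (e n)
      bdd := by
        obtain ⟨N, hN⟩ := hP.bdd
        exact ⟨N, fun n hn => by
          change (P n).map _ = ⊥
          rw [hN n hn, Submodule.map_bot]⟩ }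
  obtain ⟨Z, ⟨uZ⟩, hZd, hdis, hP'⟩ := hCh G W F q hq C t hC hsph PF hPF
  -- the complex
  have hM := hP'.toIsModel
  let P' : ∀ n, Submodule (ZG G) (SC G n F) := Function.update PF 2 (PF 2 ⊔ Z)
  have hP'ne : ∀ n, n ≠ 2 → P' n = PF n := fun n hn => Function.update_of_ne hn _ _
  have hP'2 : P' 2 = PF 2 ⊔ Z := Function.update_self _ _ _
  have hexact : ∀ j (x : SC G (j + 3) F), x ∈ PF (j + 3) → SC.d G (j + 2) F x = 0 →
      ∃ y ∈ PF (j + 4), SC.d G (j + 3) F y = x := by
    rintro j _ ⟨x, hx, rfl⟩ hxd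
    have h1 : SC.d G (j + 2) E x = 0 :=
      pl_inj ι hg hi _ ((pl_d ι hg (j + 2) x).symm.trans (hxd.trans (map_zero _).symm))
    obtain ⟨b, hb⟩ := hhigh (j + 2) (by omega) x.un h1
    obtain ⟨y, hy, h⟩ := hP.inj (j + 3) x hx h1 ⟨SC.mk G b, trivial, hb⟩
    exact ⟨pl ι hg _ y, ⟨y, hy, rfl⟩, (pl_d ι hg _ y).trans (congrArg _ h)⟩
  have hdat : D2Data G (A1x.CC (S := fun n => SC G n F) (d := fun n => SC.d G n F)
      A1x.d_d hM) :=
    { free := hP'.free
      finite := hP'.fin
      bounded := by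
        obtain ⟨N, hN⟩ := hP'.bdd
        refine ⟨N, fun i hi => ?_⟩
        have h : P' i = ⊥ := hN i hi
        change Subsingleton (P' i)
        rw [h]
        infer_instance
      homology_zero := by
        obtain ⟨ε, h1, h2, h3⟩ := A1x.hzero (fun c => A1h.aug_iff c) hM
        refine ⟨ε, h1, h2, fun x => (h3 x).trans ?_⟩
        exact ⟨fun ⟨y, hy⟩ => ⟨y, (A1x.CC_d A1x.d_d hM 0 y).trans hy⟩, fun ⟨y, hy⟩ =>
          ⟨y, (A1x.CC_d A1x.d_d hM 0 y).symm.trans hy⟩⟩
      homology_one := by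
        rw [exactAt_succ_iff]
        intro x hx
        have hx' : A1x.dP hM 0 x = 0 := (A1x.CC_d A1x.d_d hM 0 x).symm.trans hx
        have hx2 : SC.d G 0 F (x : P' 1).1 = 0 := congrArg Subtype.val hx'
        obtain ⟨b, hb⟩ := A1h.h_one (x : P' 1).1 hx2
        obtain ⟨y, hy, h⟩ := hM.inj 1 (x : P' 1).1 (x : P' 1).2 hx2 ⟨SC.mk G b, trivial, hb⟩
        exact ⟨⟨y, hy⟩, (A1x.CC_d A1x.d_d hM 1 ⟨y, hy⟩).trans (Subtype.ext h)⟩
      homology_high := by
        intro i hi
        obtain ⟨j, rfl⟩ : ∃ j, i = j + 3 := ⟨i - 3, by omega⟩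
        rw [exactAt_succ_iff]
        intro x hx
        have hx' : A1x.dP hM (j + 2) x = 0 := (A1x.CC_d A1x.d_d hM (j + 2) x).symm.trans hx
        have hx2 : SC.d G (j + 2) F (x : P' (j + 3)).1 = 0 := congrArg Subtype.val hx'
        have hx3 : (x : P' (j + 3)).1 ∈ PF (j + 3) := by
          rw [← hP'ne (j + 3) (by omega)]
          exact (x : P' (j + 3)).2
        obtain ⟨y, hy, h⟩ := hexact j _ hx3 hx2
        have hy' : y ∈ P' (j + 4) := by
          rw [hP'ne (j + 4) (by omega)]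
          exact hy
        exact ⟨⟨y, hy'⟩, (A1x.CC_d A1x.d_d hM (j + 3) ⟨y, hy'⟩).trans (Subtype.ext h)⟩
      cohomology_three := by
        intro M _ _ _ φ hφ
        have hfree' := hP.free
        have h33 : ∀ y : P 3, pl ι hg 3 y.1 ∈ P' 3 := fun y => by
          rw [hP'ne 3 (by omega)]
          exact ⟨y.1, y.2, rfl⟩
        let φE : P 3 →ₗ[ZG G] M := (show P' 3 →ₗ[ZG G] M from φ).comp
          (((pl ι hg 3).comp (P 3).subtype).codRestrict (P' 3) h33)
        have hφE : ∀ y : P 3, φE y = (show P' 3 →ₗ[ZG G] M from φ) ⟨pl ι hg 3 y.1, h33 y⟩ :=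
          fun y => rfl
        obtain ⟨ψE, hψE⟩ := A1x.coh (S := fun n => SC G n E) (d := fun n => SC.d G n E)
          A1x.d_d hP.toIsModel (fun n => by have := hfree n; infer_instance)
          (fun n => inferInstance) (M := M) 2 (fun f hf => A1x.h3_lin h3 f hf) φE (fun x => by
            rw [hφE]
            have h44 : pl ι hg 4 x.1 ∈ P' 4 := by
              rw [hP'ne 4 (by omega)]
              exact ⟨x.1, x.2, rfl⟩
            have h1 := hφ (show P' 4 from ⟨pl ι hg 4 x.1, h44⟩)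
            rw [show ((A1x.CC (S := fun n => SC G n F) (d := fun n => SC.d G n F) A1x.d_d
              hM).d 4 3) (show P' 4 from ⟨pl ι hg 4 x.1, h44⟩) =
                A1x.dP hM 3 (⟨pl ι hg 4 x.1, h44⟩ : P' 4) from A1x.CC_d A1x.d_d hM 3 _] at h1
            refine Eq.trans (congrArg (show P' 3 →ₗ[ZG G] M from φ) (Subtype.ext ?_)) h1
            exact (pl_d ι hg 3 x.1).symm)
        let ψ : P' 2 →ₗ[ZG G] M := (ψE.comp ((e 2).symm.toLinearMap.comp
          ((LinearMap.fst (ZG G) _ _).comp ((supEquiv hdis).symm.toLinearMap.comp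
            (LinearEquiv.ofEq _ _ hP'2).toLinearMap))))
        have hψ : ∀ (y : P 2) (h : pl ι hg 2 y.1 ∈ P' 2), ψ ⟨pl ι hg 2 y.1, h⟩ = ψE y := by
          intro y h
          have h1 : (LinearEquiv.ofEq _ _ hP'2) ⟨pl ι hg 2 y.1, h⟩ = supEquiv hdis (e 2 y, 0) := by
            apply Subtype.ext
            rw [supEquiv_apply]
            change pl ι hg 2 y.1 = pl ι hg 2 y.1 + 0
            rw [add_zero]
          change ψE ((e 2).symm ((supEquiv hdis).symm ((LinearEquiv.ofEq _ _ hP'2)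
            ⟨pl ι hg 2 y.1, h⟩)).1) = ψE y
          rw [h1, LinearEquiv.symm_apply_apply, LinearEquiv.symm_apply_apply]
        refine ⟨ψ, fun x => ?_⟩
        have hx3 : (x : P' 3).1 ∈ PF 3 := by
          rw [← hP'ne 3 (by omega)]
          exact (x : P' 3).2
        obtain ⟨x0, hx0, hx0'⟩ := hx3
        have h22 : pl ι hg 2 (SC.d G 2 E x0) ∈ P' 2 := by
          rw [hP'2]
          exact Submodule.mem_sup_left ⟨_, hP.d_mem 2 x0 hx0, rfl⟩
        have h1 : (show P' 3 from x) = ⟨pl ι hg 3 x0, h33 ⟨x0, hx0⟩⟩ := Subtype.ext hx0'.symm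
        have h2 : ((A1x.CC (S := fun n => SC G n F) (d := fun n => SC.d G n F) A1x.d_d
            hM).d 3 2) x = (⟨pl ι hg 2 (SC.d G 2 E x0), h22⟩ : P' 2) := by
          refine (A1x.CC_d A1x.d_d hM 2 x).trans (Subtype.ext ?_)
          change SC.d G 2 F (x : P' 3).1 = _
          rw [← hx0', pl_d]
        have h3 : φ x = φE ⟨x0, hx0⟩ := by
          rw [hφE]
          exact congrArg (show P' 3 →ₗ[ZG G] M from φ) h1
        rw [h2, h3, hψE]
        exact (hψ (A1x.dP hP.toIsModel 2 ⟨x0, hx0⟩) h22).symm }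
  refine ⟨_, hdat.isD2, ⟨Function.update ν 2 (ν 2 + t), N + 3, fun i => ?_, fun i hi => ?_,
    euler_update ν N t hN⟩, fun Pr ⟨e'⟩ => A1x.qi hM Pr e'⟩
  · change Nonempty (P' i ≃ₗ[ZG G] (Fin (Function.update ν 2 (ν 2 + t) i) → ZG G))
    by_cases hi2 : i = 2
    · subst hi2
      rw [Function.update_self]
      obtain ⟨u⟩ := hν 2
      obtain ⟨w⟩ := powAdd (R := ZG G) (ν 2) t
      exact ⟨((LinearEquiv.ofEq _ _ hP'2).trans (supEquiv hdis).symm).trans
        ((LinearEquiv.prodCongr ((e 2).symm.trans u) uZ).trans w)⟩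
    · rw [Function.update_of_ne hi2]
      obtain ⟨u⟩ := hν i
      exact ⟨(LinearEquiv.ofEq _ _ (hP'ne i hi2)).trans ((e i).symm.trans u)⟩
  · rw [Function.update_of_ne (by omega)]
    exact hN i (by omega)

end Vale.Agent.P246.R2.H31V
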