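import Vale.Agent.P246.R2.H31.TopChi
import Vale.Agent.P246.R2.H429.Defs4

/-! # P246: assembly of the fourth wave (topological wedges) -/

set_option linter.all false

namespace Vale.Agent.P246.R2.H31W

open Topology Metric Set Vale.Agent.P246 Vale.Agent.P246.T Vale.Agent.P246.H429
  Vale.Agent.P246.R2.H31T

/-- the inclusion of `X` -/
def jX (X : Type) [TopologicalSpace X] (y : X) (s : S2) (t : ℕ) : C(X, WedgeS2 X y s t) :=
  ⟨fun x => ⟨(x, fun _ => s), Or.inl fun _ => rfl⟩, by
    refine Continuous.subtype_mk ?_ _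
    fun_prop⟩

theorem jX_inj (X : Type) [TopologicalSpace X] (y : X) (s : S2) (t : ℕ) :
    Function.Injective (jX X y s t) := fun a b h => by
  have h1 := congrArg (fun q : WedgeS2 X y s t => q.1.1) h
  exact h1

theorem range_jX (X : Type) [TopologicalSpace X] (y : X) (s : S2) (t : ℕ) :
    range (jX X y s t) = inX X y s t := by
  ext q
  constructor
  · rintro ⟨x, rfl⟩ i
    rfl
  · intro h
    refine ⟨q.1.1, ?_⟩
    apply Subtype.ext
    refine Prod.ext rfl ?_
    funext i
    exact (h i).symm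

theorem built_image {X W : Type} [TopologicalSpace X] [TopologicalSpace W] (j : C(X, W))
    (hj : Function.Injective j) {B : Set X} (hB : Built ∅ B) : Built ∅ (j '' B) := by
  induction hB with
  | base =>
    rw [image_empty]
    exact Built.base
  | cell n Φ _ h ih =>
    refine Built.cell n (j.comp Φ) ih ⟨?_, ?_, ?_, ?_⟩
    · intro x hx
      exact ⟨Φ x, h.bdry x hx, rfl⟩
    · rintro x hx ⟨a, ha, hax⟩
      exact h.int x hx (hj hax ▸ ha)
    · intro x z hx hz hxz
      exact h.inj x z hx hz (hj hxz)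
    · rw [h.eq, image_union, ContinuousMap.coe_comp, range_comp]

theorem built_sph {W : Type} [TopologicalSpace W] {C B : Set W} {t : ℕ} (h : Sph C B t)
    (hC : Built ∅ C) : Built ∅ B := by
  induction h with
  | base => exact hC
  | cell Φ a _ _ _ h ih => exact Built.cell 2 Φ ih h

theorem tw6 : SpecSph → SpecCovW → SpecSCW → SpecChW → SpecAlgW → SpecTopWedge := by
  intro hSph hCov hSC hCh hAlg G _ e hG X _ _ _ _ _ x y s t he hD hχ
  obtain ⟨hB, hcpt, hlpc⟩ := CWB.main X
  have hpc : PathConnectedSpace X := PathConnectedSpace.of_locallyPathConnectedSpace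
  obtain ⟨E, _, _, _, p, hsc, hp, hH, hH3⟩ := AC.main G X x he hD
  obtain ⟨P, hP, hν⟩ := modelN (p := p) MS.main CL.main fund hp (builtN_univ (X := X))
  obtain ⟨N, hN⟩ := exists_bound (X := X)
  obtain ⟨F, _, _, _, q, ι, hq, hι, hιr, hιg, hqι⟩ := hCov G X E p hp y s t
  have hsph := hSph X y s t
  have hclosed : IsClosed (inX X y s t) := by
    have : inX X y s t = ⋂ i, {q : WedgeS2 X y s t | q.1.2 i = s} := by
      ext q
      simp [inX]
    rw [this]
    refine isClosed_iInter fun i => isClosed_eq ?_ continuous_const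
    fun_prop
  have hscC : SimplyConnectedSpace (q ⁻¹' inX X y s t : Set F) := by
    have e1 : E ≃ₜ (q ⁻¹' inX X y s t : Set F) :=
      hι.toHomeomorph.trans (Homeomorph.setCongr hιr)
    exact e1.symm.toHomotopyEquiv.simplyConnectedSpace
  have hscF : SimplyConnectedSpace F := hSC G (WedgeS2 X y s t) F q hq _ t hclosed hsph hscC
  obtain ⟨D, hD2, hE, hreal⟩ := hAlg hCh G (WedgeS2 X y s t) E F q hq _ t ι hclosed hsph hι hιr hιg
    hH hH3 (fun n => A1f.free hp n) P _ N hP hν hN
  obtain ⟨Pr, hPr⟩ := hG D hD2 _ hE (by rw [← cellChi_eq X N hN]; exact hχ)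
  obtain ⟨ψ0, ψ1, ψ2, hψ⟩ := hreal Pr hPr
  have hBW : Built ∅ (univ : Set (WedgeS2 X y s t)) := by
    refine built_sph hsph ?_
    rw [← range_jX, ← image_univ]
    exact built_image _ (jX_inj X y s t) hB
  exact realise WC.main A2.main (YD.main fund) YC.main CY.main YP.main
    (YH.main MS.main CL.main fund) EWb.main RV.main relHur DN.main CV.main WH.main hBW q hq Pr
    ψ0 ψ1 ψ2 hψ

end Vale.Agent.P246.R2.H31W
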