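import Vale.Agent.P246.T.Top
import Vale.Agent.P246.R2.H429.Defs2

/-! # P246: the topological form, with the Euler characteristic -/

set_option linter.all false

namespace Vale.Agent.P246.R2.H31T

open Topology Metric Set Vale.Agent.P246 Vale.Agent.P246.T Vale.Agent.P246.H429

/-! ## Counting cells -/

/-- sets which are built from `∅` by attaching finitely many cells, `ν n` of them of
dimension `n` -/
inductive BuiltN {X : Type} [TopologicalSpace X] : Set X → (ℕ → ℕ) → Prop
  | base : BuiltN ∅ (fun _ => 0)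
  | cell {A B : Set X} {ν : ℕ → ℕ} (n : ℕ) (Φ : C(Dk n, X)) : BuiltN A ν → Attach n A B Φ →
      BuiltN B (Function.update ν n (ν n + 1))

section

variable {X : Type} [TopologicalSpace X] [CWComplex (univ : Set X)]

open CWB

theorem builtN : ∀ (k : ℕ) (T : Finset (Cells X)), T.card = k →
    (∀ c ∈ T, ∀ c' : Cells X, c'.1 < c.1 → c' ∈ T) →
    BuiltN (U T) (fun n => (T.filter fun c => c.1 = n).card) := by
  classical
  intro k
  induction k with
  | zero =>
    intro T hT _
    rw [Finset.card_eq_zero] at hT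
    subst hT
    have : U (∅ : Finset (Cells X)) = ∅ := by simp [U]
    rw [this]
    simp only [Finset.filter_empty, Finset.card_empty]
    exact BuiltN.base
  | succ k ih =>
    intro T hT hdown
    have hne : T.Nonempty := by
      rw [← Finset.card_pos]; omega
    obtain ⟨c, hc, hmax⟩ := Finset.exists_max_image T (fun c => c.1) hne
    have h1 : ∀ c' ∈ T.erase c, ∀ c'' : Cells X, c''.1 < c'.1 → c'' ∈ T.erase c := by
      intro c' hc' c'' h
      have h2 := hmax c' (Finset.mem_of_mem_erase hc')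
      refine Finset.mem_erase.2 ⟨?_, hdown c' (Finset.mem_of_mem_erase hc') c'' h⟩
      rintro rfl
      omega
    have h2 := ih (T.erase c) (by rw [Finset.card_erase_of_mem hc, hT]; rfl) h1
    have hν : (fun n => (T.filter fun c => c.1 = n).card) =
        Function.update (fun n => ((T.erase c).filter fun c => c.1 = n).card) c.1
          (((T.erase c).filter fun c' => c'.1 = c.1).card + 1) := by
      funext n
      by_cases hn : n = c.1
      · subst hn
        have hm : c ∈ T.filter fun c' => c'.1 = c.1 := Finset.mem_filter.2 ⟨hc, rfl⟩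
        rw [Function.update_self, Finset.filter_erase, Finset.card_erase_of_mem hm]
        have : 0 < (T.filter fun c' => c'.1 = c.1).card := Finset.card_pos.2 ⟨c, hm⟩
        omega
      · rw [Function.update_of_ne hn, Finset.filter_erase, Finset.erase_eq_of_notMem]
        intro hmem
        exact hn (Finset.mem_filter.1 hmem).2.symm
    rw [hν]
    refine BuiltN.cell c.1 (chi c) h2 ⟨?_, ?_, ?_, ?_⟩
    · intro x hx
      obtain ⟨c', hc', h'⟩ := frontier c x hx
      refine mem_iUnion₂.2 ⟨c', Finset.mem_erase.2 ⟨?_, hdown c hc c' hc'⟩, h'⟩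
      rintro rfl
      exact lt_irrefl _ hc'
    · intro x hx hcon
      obtain ⟨c', hc', h'⟩ := mem_iUnion₂.1 hcon
      obtain ⟨c'', h3, h4⟩ := closed_open c'.1 c' rfl _ h'
      have h5 : c = c'' := disj (c := c) ⟨x, mem_ball_zero_iff.2 hx, rfl⟩ h3
      have h6 := hmax c' (Finset.mem_of_mem_erase hc')
      rcases h4 with rfl | h4
      · exact (Finset.mem_erase.1 hc').1 h5.symm
      · rw [← h5] at h4
        omega
    · intro x y hx hy hxy
      have h3 := (RelCWComplex.map c.1 c.2).injOn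
        (by rw [RelCWComplex.source_eq]; exact mem_ball_zero_iff.2 hx)
        (by rw [RelCWComplex.source_eq]; exact mem_ball_zero_iff.2 hy) hxy
      exact Subtype.ext h3
    · rw [range_chi]
      ext y
      simp only [U, mem_iUnion, mem_union, Finset.mem_erase, exists_prop]
      constructor
      · rintro ⟨c', hc', hy⟩
        by_cases e : c' = c
        · rw [← e]; exact Or.inr hy
        · exact Or.inl ⟨c', ⟨e, hc'⟩, hy⟩
      · rintro (⟨c', hc', hy⟩ | hy)
        · exact ⟨c', hc'.2, hy⟩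
        · exact ⟨c, hc, hy⟩

/-- the whole complex, with the number of its cells -/
theorem builtN_univ [CWComplex.Finite (univ : Set X)] :
    BuiltN (univ : Set X) (fun n => Nat.card (RelCWComplex.cell (univ : Set X) n)) := by
  classical
  have hfin : Finite (Cells X) := RelCWComplex.finite_cells_of_finite
  have : Fintype (Cells X) := Fintype.ofFinite _
  have h := builtN (X := X) _ Finset.univ rfl fun _ _ _ _ => Finset.mem_univ _
  have e : U (Finset.univ : Finset (Cells X)) = univ := by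
    ext y
    obtain ⟨c, hc⟩ := exists_cell y
    exact ⟨fun _ => trivial, fun _ => mem_iUnion₂.2 ⟨c, Finset.mem_univ _, hc⟩⟩
  rw [e] at h
  have hν : (fun n => ((Finset.univ : Finset (Cells X)).filter fun c => c.1 = n).card) =
      fun n => Nat.card (RelCWComplex.cell (univ : Set X) n) := by
    funext n
    have e2 : {c : Cells X // c ∈ (Finset.univ : Finset (Cells X)).filter fun c => c.1 = n} ≃
        RelCWComplex.cell (univ : Set X) n :=
      { toFun := fun c => (Finset.mem_filter.1 c.2).2 ▸ c.1.2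
        invFun := fun c => ⟨⟨n, c⟩, Finset.mem_filter.2 ⟨Finset.mem_univ _, rfl⟩⟩
        left_inv := by
          rintro ⟨⟨m, c⟩, hm⟩
          obtain rfl : m = n := (Finset.mem_filter.1 hm).2
          rfl
        right_inv := fun c => rfl }
    rw [← Nat.card_congr e2, Nat.card_eq_fintype_card, Fintype.card_coe]
  rw [hν] at h
  exact h

/-- no cells in large dimensions -/
theorem exists_bound [CWComplex.Finite (univ : Set X)] :
    ∃ N : ℕ, ∀ n, N ≤ n → Nat.card (RelCWComplex.cell (univ : Set X) n) = 0 := by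
  classical
  have hfin : Finite (Cells X) := RelCWComplex.finite_cells_of_finite
  have : Fintype (Cells X) := Fintype.ofFinite _
  refine ⟨(Finset.univ : Finset (Cells X)).sup (fun c => c.1) + 1, fun n hn => ?_⟩
  have : IsEmpty (RelCWComplex.cell (univ : Set X) n) := by
    constructor
    intro c
    have h := Finset.le_sup (f := fun c : Cells X => c.1) (Finset.mem_univ (⟨n, c⟩ : Cells X))
    change n ≤ _ at h
    omega
  exact Nat.card_of_isEmpty

end

/-! ## The finite free model with its ranks -/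

section Alg

variable {R M : Type} [Ring R] [AddCommGroup M] [Module R M]

/-- one more generator -/
theorem rank_sup {P A : Submodule R M} (hPA : P ≤ A) {z : M} (hz : ∀ r : R, r • z ∈ A → r = 0)
    {m : ℕ} (hP : Nonempty (P ≃ₗ[R] (Fin m → R))) :
    Nonempty ((P ⊔ Submodule.span R {z} : Submodule R M) ≃ₗ[R] (Fin (m + 1) → R)) := by
  obtain ⟨u⟩ := hP
  let f : (P × R) →ₗ[R] M := P.subtype.coprod (LinearMap.toSpanSingleton R M z)
  have hf : Function.Injective f := by
    rw [injective_iff_map_eq_zero]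
    rintro ⟨x, r⟩ h
    have h1 : (x : M) + r • z = 0 := h
    have hr : r = 0 := hz r (by
      rw [eq_neg_of_add_eq_zero_right h1]
      exact Submodule.neg_mem _ (hPA x.2))
    subst hr
    rw [zero_smul, add_zero] at h1
    exact Prod.ext (Subtype.ext h1) rfl
  have hrange : LinearMap.range f = P ⊔ Submodule.span R {z} := by
    rw [LinearMap.range_coprod, Submodule.range_subtype, LinearMap.range_toSpanSingleton]
  have e := (LinearEquiv.ofInjective f hf).trans (LinearEquiv.ofEq _ _ hrange)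
  exact ⟨e.symm.trans (((LinearEquiv.prodCongr u (LinearEquiv.refl R R)).trans
    (LinearEquiv.prodComm R _ _)).trans (Fin.consLinearEquiv R (fun _ : Fin (m + 1) => R)))⟩

end Alg

section

variable {G X E : Type} [Group G] [TopologicalSpace X] [T2Space X]
  [TopologicalSpace E] [MulAction G E] [ContinuousConstSMul G E] {p : C(E, X)}

theorem cellN (hms : SpecMS) (hcl : SpecCL) (hf : SpecFund) (hp : IsQuotientCoveringMap p G)
    {A B : Set X} {n : ℕ} {Φ : C(Dk n, X)} (hA : IsClosed A) (h : Attach n A B Φ)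
    {P : ∀ k, Submodule (ZG G) (SC G k E)} {ν : ℕ → ℕ}
    (hP : IsFinModel (fun n => SC G n E) (fun n => SC.d G n E) (Step.SA hp A) P)
    (hν : ∀ k, Nonempty (P k ≃ₗ[ZG G] (Fin (ν k) → ZG G))) :
    ∃ P' : ∀ k, Submodule (ZG G) (SC G k E),
      IsFinModel (fun n => SC G n E) (fun n => SC.d G n E) (Step.SA hp B) P' ∧
      ∀ k, Nonempty (P' k ≃ₗ[ZG G] (Fin (Function.update ν n (ν n + 1) k) → ZG G)) := by
  obtain ⟨Ψ, hΨ⟩ := MX.exists_lift hp Φ
  obtain ⟨ζ, hζ⟩ := hf.1 n
  -- the correction of the cell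
  obtain ⟨z, hz, hz'⟩ : ∃ z : SC G n E, z.un - push Ψ n ζ ∈ Con (p ⁻¹' A) n ∧
      DRel (fun n => SC G n E) (fun n => SC.d G n E) P n z := by
    cases n with
    | zero =>
      refine ⟨SC.mk G (push Ψ 0 ζ), ?_, trivial⟩
      rw [SC.un_mk, sub_self]
      exact Submodule.zero_mem _
    | succ m =>
      have h1 : bd m (push Ψ (m + 1) ζ) ∈ Con (p ⁻¹' A) m := by
        rw [push_bd]
        refine push_mem (fun x hx => ?_) hζ.cyc
        change p (Ψ x) ∈ A
        rw [hΨ]
        exact h.bdry x hx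
      obtain ⟨y, hy, -, z', hz', he⟩ := hP.surj m (SC.mk G (bd m (push Ψ (m + 1) ζ))) h1 (by
        cases m with
        | zero => trivial
        | succ m => exact SC.un_inj (PR.bd_bd m _))
      refine ⟨SC.mk G (push Ψ (m + 1) ζ) - z', ?_, ?_⟩
      · rw [SC.un_sub, SC.un_mk, sub_sub_cancel_left]
        exact Submodule.neg_mem _ hz'
      · change SC.d G m E (SC.mk G (push Ψ (m + 1) ζ) - z') ∈ P m
        have e : SC.d G m E (SC.mk G (push Ψ (m + 1) ζ) - z') = y := by
          rw [map_sub, sub_eq_iff_eq_add]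
          exact he
        rw [e]
        exact hy
  obtain ⟨h1, h2⟩ := Step.step hms CC.main2 hcl hp Ψ hA h hΨ hζ hP.toIsModel z hz hz'
  refine ⟨_, { toIsModel := h1, free := fun k => ?_, fin := fun k => ?_, bdd := ?_ }, fun k => ?_⟩
  · by_cases hk : k = n
    · subst hk
      rw [Function.update_self]
      exact MX.free_sup (hP.le k) h2 (hP.free k)
    · rw [Function.update_of_ne hk]
      exact hP.free k
  · by_cases hk : k = n
    · subst hk
      rw [Function.update_self]
      exact MX.finite_sup z (hP.fin k)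
    · rw [Function.update_of_ne hk]
      exact hP.fin k
  · obtain ⟨N, hN⟩ := hP.bdd
    refine ⟨max N n, fun k hk => ?_⟩
    rw [Function.update_of_ne (by have := le_max_right N n; omega)]
    exact hN k (lt_of_le_of_lt (le_max_left N n) hk)
  · by_cases hk : k = n
    · subst hk
      rw [Function.update_self, Function.update_self]
      exact rank_sup (hP.le k) h2 (hν k)
    · rw [Function.update_of_ne hk, Function.update_of_ne hk]
      exact hν k

theorem builtModel (hms : SpecMS) (hcl : SpecCL) (hf : SpecFund) (hp : IsQuotientCoveringMap p G)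
    {B : Set X} {ν : ℕ → ℕ} (hB : BuiltN B ν) : IsClosed B ∧
    ∃ P : ∀ k, Submodule (ZG G) (SC G k E),
      IsFinModel (fun n => SC G n E) (fun n => SC.d G n E) (Step.SA hp B) P ∧
      ∀ k, Nonempty (P k ≃ₗ[ZG G] (Fin (ν k) → ZG G)) := by
  induction hB with
  | base =>
    refine ⟨isClosed_empty, _, MX.base hp, fun k => ?_⟩
    exact ⟨LinearEquiv.ofSubsingleton _ _⟩
  | cell n Φ _ h ih =>
    obtain ⟨hA, P, hP, hν⟩ := ih
    refine ⟨?_, cellN hms hcl hf hp hA h hP hν⟩
    rw [h.eq]
    exact hA.union (isCompact_range Φ.continuous).isClosed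

theorem modelN (hms : SpecMS) (hcl : SpecCL) (hf : SpecFund) (hp : IsQuotientCoveringMap p G)
    {ν : ℕ → ℕ} (hX : BuiltN (univ : Set X) ν) : ∃ P : ∀ k, Submodule (ZG G) (SC G k E),
      IsFinModel (fun n => SC G n E) (fun n => SC.d G n E) (fun _ => ⊤) P ∧
      ∀ k, Nonempty (P k ≃ₗ[ZG G] (Fin (ν k) → ZG G)) := by
  obtain ⟨-, P, hP, hν⟩ := builtModel hms hcl hf hp hX
  refine ⟨P, ?_, hν⟩
  have e : (Step.SA hp univ : ∀ n, Submodule (ZG G) (SC G n E)) = fun _ => ⊤ := by
    funext n
    rw [eq_top_iff]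
    intro x _
    rw [Step.mem_SA, preimage_univ]
    exact PR.Con_univ _
  rw [← e]
  exact hP

end

/-! ## Assembly -/

/-- the algebraic data of a finite D(2) complex -/
theorem algData {G X E : Type} [Group G] [TopologicalSpace X] [TopologicalSpace E]
    [SimplyConnectedSpace E] [MulAction G E] [ContinuousConstSMul G E] (p : C(E, X))
    (hp : IsQuotientCoveringMap p G)
    (hhigh : ∀ i, 2 ≤ i → ∀ c : Ch (i + 1) E, bd i c = 0 → ∃ b : Ch (i + 2) E, bd (i + 1) b = c)
    (h3 : H3G G E) {P : ∀ n, Submodule (ZG G) (SC G n E)}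
    (hP : IsFinModel (fun n => SC G n E) (fun n => SC.d G n E) (fun _ => ⊤) P) {ν : ℕ → ℕ}
    (hν : ∀ k, Nonempty (P k ≃ₗ[ZG G] (Fin (ν k) → ZG G))) (N : ℕ) (hN : ∀ i, N ≤ i → ν i = 0) :
    ∃ C : Cx (ZG G), IsD2Complex C ∧
      HasEuler C (∑ i ∈ Finset.range N, (-1 : ℤ) ^ i * ν i) ∧
      ∀ Pr : FinPresentation G, C.Equiv (foxComplex Pr) →
        ∃ (ψ0 : ZG G →ₗ[ZG G] SC G 0 E) (ψ1 : (Fin Pr.gens → ZG G) →ₗ[ZG G] SC G 1 E)
          (ψ2 : (Fin Pr.rels → ZG G) →ₗ[ZG G] SC G 2 E), FoxQI Pr univ ψ0 ψ1 ψ2 := by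
  have hdat := A1x.data (fun c => A1h.aug_iff c) (fun c h => A1h.h_one c h)
    (fun n => A1f.free hp n) hhigh h3 hP
  refine ⟨_, hdat.isD2, ⟨ν, N, fun i => hν i, hN, rfl⟩, fun Pr ⟨e⟩ => ?_⟩
  exact A1x.qi hP.toIsModel Pr e

/-- the Euler characteristic as a finite sum -/
theorem cellChi_eq (X : Type) [TopologicalSpace X] [T2Space X] [CWComplex (univ : Set X)] (N : ℕ)
    (hN : ∀ n, N ≤ n → Nat.card (RelCWComplex.cell (univ : Set X) n) = 0) :
    cellChi X = ∑ i ∈ Finset.range N,
      (-1 : ℤ) ^ i * (Nat.card (RelCWComplex.cell (univ : Set X) i) : ℤ) := by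
  rw [cellChi]
  refine finsum_eq_sum_of_support_subset _ fun n hn => ?_
  rw [Function.mem_support] at hn
  rw [Finset.coe_range, mem_Iio]
  by_contra hcon
  refine hn ?_
  rw [hN n (by omega), Nat.cast_zero, mul_zero]

/-- a quasi-isomorphism from the Fox complex gives the finite two-dimensional model -/
theorem realise (hWC : SpecWC) (hA2 : SpecA2)
    (hYD : SpecYD) (hYC : SpecYC) (hCY : SpecCY') (hYP : SpecYP) (hYH : SpecYH)
    (hEW : SpecEW) (hRV : SpecRV) (hRH : SpecRH) (hDN : SpecDown) (hCV : SpecConv)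
    (hWh : SpecWh) {G X E : Type} [Group G] [TopologicalSpace X] [T2Space X]
    (hB : Built ∅ (univ : Set X)) [TopologicalSpace E]
    [hsc : SimplyConnectedSpace E] [MulAction G E] [ContinuousConstSMul G E] (p : C(E, X))
    (hp : IsQuotientCoveringMap p G) (Pr : FinPresentation G)
    (ψ0 : ZG G →ₗ[ZG G] SC G 0 E) (ψ1 : (Fin Pr.gens → ZG G) →ₗ[ZG G] SC G 1 E)
    (ψ2 : (Fin Pr.rels → ZG G) →ₗ[ZG G] SC G 2 E) (hψ : FoxQI Pr univ ψ0 ψ1 ψ2) :
    HasFiniteTwoModel X := by
  obtain ⟨e⟩ : Nonempty E := inferInstance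
  have hα : ∀ i, Nonempty (Path e (Pr.x i • e)) := fun i => PathConnectedSpace.joined _ _
  let α : ∀ i, Path e (Pr.x i • e) := fun i => (hα i).some
  obtain ⟨W⟩ := hWC
  obtain ⟨c, hc⟩ := hA2 G E Pr ψ0 ψ1 ψ2 hψ e (α)
  have hc0 := (hc c fun j => ⟨0, by simp⟩).1
  have hrel : ∀ j, wval Pr.x (Pr.r j).toWord = 1 := by
    intro j
    have h1 : Pr.r j ∈ (FreeGroup.lift Pr.x).ker := by
      rw [Pr.ker_eq]; exact Subgroup.subset_normalClosure ⟨j, rfl⟩
    have h2 : ∀ w : List (Fin Pr.gens × Bool), wval Pr.x w = FreeGroup.lift Pr.x (FreeGroup.mk w) := by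
      intro w
      induction w with
      | nil => rw [wval]; exact (map_one (FreeGroup.lift Pr.x)).symm
      | cons l w ih =>
        rw [wval, ih, lval]
        simp only [FreeGroup.lift_mk, List.map_cons, List.prod_cons]
        cases l.2 <;> rfl
    rw [h2, FreeGroup.mk_toWord]
    exact h1
  have hδ : ∀ j, ∃ δ : C(Dk 2, E), BdryWord Pr.x α (Pr.r j).toWord δ ∧ ∃ t : Ch 3 E,
      push δ 2 zeta2 + ksx 2 e + W.cor G E Pr.gens Pr.x e α (Pr.r j).toWord = c j + bd 2 t :=
    fun j => hYD W G E _ Pr.x e α _ (hrel j) (c j) (hc0 j)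
  choose δ hδ1 hδ2 using hδ
  obtain ⟨y, hy, hye, hya, hyb⟩ := hYC G X E p hp Pr e α δ hδ1
  obtain ⟨hpW, hscW, ⟨hX⟩, f, hf, hfg, h, hfh, hhf⟩ := hEW G X E p hp Pr.gens Pr.rels
  have := hscW hsc
  have hbuilt := hCY G (X × WW Pr.gens Pr.rels) (EW G E Pr.gens Pr.rels) (pW G Pr.gens Pr.rels p)
    hpW Pr y hy
  have hscY := hYP G (X × WW Pr.gens Pr.rels) (EW G E Pr.gens Pr.rels) (pW G Pr.gens Pr.rels p)
    hpW Pr y hy
  have hQ := hYH W G (X × WW Pr.gens Pr.rels) (EW G E Pr.gens Pr.rels) (pW G Pr.gens Pr.rels p)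
    hpW Pr y hy
  have hQE := (hc (fun j => push f 2 (y.zface W j)) (fun j => by
    obtain ⟨t, ht⟩ := hδ2 j
    refine ⟨t, ?_⟩
    rw [← ht, PresCx.zface, map_add, map_add]
    congr 1
    · congr 1
      · rw [← push_comp]
        congr 1
        congr 1
        ext z
        rw [ContinuousMap.comp_apply, hf, hyb]
      · rw [ksx, push_single, ksx]
        congr 1
        ext z
        simp [hf, hye]
    · refine W.nat G _ E f hfg _ _ _ _ _ _ ?_ ?_ _
      · rw [hf, hye]
      · intro i t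
        rw [hf, hya])).2
  have hHZ : ∀ k, HZero univ (pW G Pr.gens Pr.rels p ⁻¹' y.Y) k := by
    refine hRV G E (EW G E Pr.gens Pr.rels) f hfg ⟨h, hfh, hhf⟩ Pr _ _ _ _ _ _ _ hQ hQE ?_ ?_ ?_
    · intro v
      rw [phi0, phi0, LinearMap.toSpanSingleton_apply, LinearMap.toSpanSingleton_apply,
        SC.un_smul, SC.un_smul, SC.un_mk, SC.un_mk, Finsupp.sum, Finsupp.sum, map_sum]
      refine Finset.sum_congr rfl fun g _ => ?_
      rw [map_smul, ksx, ksx, push_single, push_single, push_single]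
      congr 2
      ext z
      simp only [ContinuousMap.comp_apply, ContinuousMap.const_apply]
      change g • e = f (g • y.e)
      rw [hfg, hf, hye]
    · intro v
      rw [phi1, phi1, push_lmap f hfg]
      congr 3
      funext i
      rw [SC.un_mk, psx, psx, push_single]
      congr 2
      ext z
      simp only [ContinuousMap.comp_apply]
      change α i _ = f (y.a i _)
      rw [hf, hya]
    · intro v
      rw [push_lmap f hfg]
      rfl
  have hL := hRH (EW G E Pr.gens Pr.rels) (pW G Pr.gens Pr.rels p ⁻¹' y.Y) hHZ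
  have hL2 : ∀ n, Lft y.Y n := fun n => hCV _ _ n (hDN G _ _ (pW G Pr.gens Pr.rels p) hpW y.Y n (hL n))
  obtain ⟨hbY, hcw, hfin, hdim⟩ := hbuilt
  refine ⟨y.Y, inferInstance, inferInstance, hcw, hfin, hdim, ?_⟩
  exact hWh X (X × WW Pr.gens Pr.rels) y.Y hB hbY hL2 ⟨hX⟩

/-- ROW T -/
theorem topChi : SpecTopChi := by
  intro G _ e hG X _ _ _ _ _ x he hD hχ
  obtain ⟨hB, hcpt, hlpc⟩ := CWB.main X
  have hpc : PathConnectedSpace X := PathConnectedSpace.of_locallyPathConnectedSpace
  obtain ⟨E, _, _, _, p, hsc, hp, hH, hH3⟩ := AC.main G X x he hD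
  obtain ⟨P, hP, hν⟩ := modelN (p := p) MS.main CL.main fund hp (builtN_univ (X := X))
  obtain ⟨N, hN⟩ := exists_bound (X := X)
  obtain ⟨C, hC, hE, hreal⟩ := algData p hp hH hH3 hP hν N hN
  obtain ⟨Pr, hPr⟩ := hG C hC _ hE (by rw [← cellChi_eq X N hN]; exact hχ)
  obtain ⟨ψ0, ψ1, ψ2, hψ⟩ := hreal Pr hPr
  exact realise WC.main A2.main (YD.main fund) YC.main CY.main YP.main
    (YH.main MS.main CL.main fund) EWb.main RV.main relHur DN.main CV.main WH.main hB p hp Pr
    ψ0 ψ1 ψ2 hψ

end Vale.Agent.P246.R2.H31T
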